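import Vale.Agent.P022.H390E.Trc

/-!
# P022: algebra of families: the constant family, Hensel's lemma, cancellation
-/

namespace Vale.Agent.P022.H390E

open Vale.Agent.P022.H390
open UpperHalfPlane hiding I
open ModularForm CongruenceSubgroup Matrix.SpecialLinearGroup
open scoped MatrixGroups ModularForm Manifold Real Nat NumberTheorySymbols

noncomputable section

variable {N : ℕ} {Φ Ψ X Y : Fm} {ε C : ℝ}

/-- the power series of a family at `d` -/
def ps (Φ : Fm) (d : ℕ) : PowerSeries L := PowerSeries.mk (Φ d)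

lemma coeff_ps (Φ : Fm) (d n : ℕ) : (ps Φ d).coeff n = Φ d n := PowerSeries.coeff_mk _ _

lemma ps_mul (Φ Ψ : Fm) (d : ℕ) : ps (mulF Φ Ψ) d = ps Φ d * ps Ψ d := by
  ext n
  rw [coeff_ps, PowerSeries.coeff_mul, mulF]
  simp only [coeff_ps]

lemma ps_add (Φ Ψ : Fm) (d : ℕ) : ps (Φ + Ψ) d = ps Φ d + ps Ψ d := by
  ext n; rw [map_add, coeff_ps, coeff_ps, coeff_ps]; rfl

lemma ps_sub (Φ Ψ : Fm) (d : ℕ) : ps (Φ - Ψ) d = ps Φ d - ps Ψ d := by
  ext n; rw [map_sub, coeff_ps, coeff_ps, coeff_ps]; rfl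

lemma ps_smul (c : L) (Φ : Fm) (d : ℕ) : ps (c • Φ) d = c • ps Φ d := by
  ext n; rw [PowerSeries.coeff_smul, coeff_ps, coeff_ps]; rfl

/-- the constant family -/
def oneF : Fm := fun _ n => if n = 0 then 1 else 0

lemma ps_one (d : ℕ) : ps oneF d = 1 := by
  ext n; rw [coeff_ps, PowerSeries.coeff_one]; rfl

lemma ps_ext (h : ∀ d, ps Φ d = ps Ψ d) : Φ = Ψ := by
  funext d n
  rw [← coeff_ps Φ, h, coeff_ps]

lemma near_iff : Near N Φ Ψ ε ↔ ∀ d, Nat.Coprime d (2 * N) → PB (ps Φ d - ps Ψ d) ε := by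
  constructor
  · intro h d hd n
    rw [map_sub, coeff_ps, coeff_ps]; exact h d hd n
  · intro h d hd n
    have := h d hd n
    rwa [map_sub, coeff_ps, coeff_ps] at this

lemma bdd_iff : BddF N Φ C ↔ ∀ d, Nat.Coprime d (2 * N) → PB (ps Φ d) C := by
  constructor
  · intro h d hd n
    rw [coeff_ps]; exact h d hd n
  · intro h d hd n
    have := h d hd n
    rwa [coeff_ps] at this

theorem oneF_mem : oneF ∈ V 1 := by
  refine V.closed fun ε hε => ?_
  obtain ⟨j, hj⟩ := exists_pow_lt_of_lt_one hε (by norm_num : (1 / 2 : ℝ) < 1)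
  have hj' : (1 / 2 : ℝ) ^ (j + 1) ≤ ε := by
    refine le_trans ?_ hj.le
    exact pow_le_pow_of_le_one (by norm_num) (by norm_num) (Nat.le_succ j)
  have hb : Bd ((1 / 2) ^ (j + 1)) (e4 ^ 2 ^ j - 1) :=
    (bd_e4.mono (show (1 / 16 : ℝ) ≤ 1 / 2 by norm_num)).pow_two_pow j
  have hMF : IsMF 1 ((4 * 2 ^ j : ℕ) : ℤ) (e4 ^ 2 ^ j) := by
    have hs : ∀ γ : SL(2, ℤ), (e4 ^ 2 ^ j) ∣[((4 * 2 ^ j : ℕ) : ℤ)] γ = e4 ^ 2 ^ j := by
      intro γ
      have := pow_slash (f := e4) (k := 4) γ (2 ^ j)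
      rw [e4_slash] at this
      push_cast at this ⊢
      exact this
    exact ⟨fun γ _ => hs γ, (e4_good.pow _).holo, fun γ => by rw [hs]; exact (e4_good.pow _).bdd⟩
  have e0 : e4 ^ 2 ^ j - 1 = e4 ^ 2 ^ j + (-1 : ℂ) • (1 : ℍ → ℂ) := by
    funext z; simp [sub_eq_add_neg]
  have hq : ∀ n, ‖iota (qc (e4 ^ 2 ^ j) n) - (if n = 0 then 1 else 0)‖ ≤ (1 / 2) ^ (j + 1) := by
    intro n
    have h1 := hb.qc_le (by rw [e0]; exact (e4_good.pow _).add (Good.one.smul _)) n
    rw [e0, qc, qExpansion_add ((e4_good.pow _).analytic one_pos)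
      ((Good.one.smul _).analytic one_pos), map_add, qExpansion_smul (Good.one.analytic one_pos),
      PowerSeries.coeff_smul, qExpansion_one, PowerSeries.coeff_one, map_add, smul_eq_mul, map_mul, map_neg, map_one, apply_ite iota, map_one, map_zero] at h1
    rw [neg_one_mul, ← sub_eq_add_neg] at h1
    exact h1
  have hd1 : ∀ d : ℕ, ∀ i : ℕ, ‖(d : L) ^ i‖ ≤ 1 := fun d i => by
    rw [norm_pow]; exact pow_le_one₀ (norm_nonneg _) (norm_nat_le_one d)
  have hnear : Near 1 (pf 1 (4 * 2 ^ j) (e4 ^ 2 ^ j)) oneF ((1 / 2) ^ (j + 1)) := by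
    intro d hd n
    rw [pf_one hMF, oneF]
    set a := iota (qc (e4 ^ 2 ^ j) n)
    set b : L := if n = 0 then 1 else 0 with hb'
    have hb1 : ‖b‖ ≤ 1 := by rw [hb']; split_ifs <;> simp
    have e : (d : L) ^ (4 * 2 ^ j) * a - b =
        (d : L) ^ (4 * 2 ^ j) * (a - b) + ((d : L) ^ (4 * 2 ^ j) - 1) * b := by ring
    rw [e]
    refine (norm_add_le_max _ _).trans (max_le ?_ ?_)
    · rw [norm_mul]
      calc ‖(d : L) ^ (4 * 2 ^ j)‖ * ‖a - b‖ ≤ 1 * (1 / 2) ^ (j + 1) := by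
            gcongr
            · exact hd1 _ _
            · exact hq n
        _ = _ := one_mul _
    · rw [norm_mul]
      calc ‖(d : L) ^ (4 * 2 ^ j) - 1‖ * ‖b‖ ≤ (1 / 2) ^ (j + 1) * 1 := by
            gcongr
            exact norm_d_pow (coprime_of_mul hd) j
        _ = _ := mul_one _
  refine ⟨_, pure_mem_V (Nat.mul_pos (by norm_num) (by positivity)) hMF ⟨max ((1 / 2) ^ (j + 1)) 1, ?_⟩, hnear.mono hj'⟩
  refine hnear.bdd fun d _ n => ?_
  rw [oneF]; split_ifs <;> simp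

/-- **Hensel's lemma for families**: a family `X ≡ 1 mod 2` whose square is in `V 1` and which
is approximated modulo `4` by an element of `V 1` is in `V 1`. -/
theorem hensel (h1 : Near 1 X oneF (1 / 2)) (hXX : mulF X X ∈ V 1) (hY : Y ∈ V 1)
    (hXY : Near 1 Y X (1 / 4)) : X ∈ V 1 := by
  have key : ∀ j : ℕ, ∃ Y ∈ V 1, Near 1 Y X ((1 / 2) ^ (j + 2)) := by
    intro j
    induction j with
    | zero => exact ⟨Y, hY, hXY.mono (by norm_num)⟩
    | succ j ih =>
      obtain ⟨Z, hZ, hn⟩ := ih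
      have hZZ : mulF Z Z ∈ V 1 := V.mul hZ hZ
      refine ⟨Z - (2 : L)⁻¹ • (mulF Z Z - mulF X X),
        sub_mem hZ (Submodule.smul_mem _ _ (sub_mem hZZ hXX)), near_iff.2 fun d hd => ?_⟩
      have hδ := near_iff.1 hn d hd
      have hx := near_iff.1 h1 d hd
      rw [ps_one] at hx
      set δ := ps Z d - ps X d with hδd
      have e : ps (Z - (2 : L)⁻¹ • (mulF Z Z - mulF X X)) d - ps X d =
          -((ps X d - 1) * δ) - (2 : L)⁻¹ • (δ * δ) := by
        rw [ps_sub, ps_smul, ps_sub, ps_mul, ps_mul]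
        have e1 : ps Z d = ps X d + δ := by rw [hδd]; ring
        rw [e1]
        have e2 : (ps X d + δ) * (ps X d + δ) - ps X d * ps X d = (2 : L) • (ps X d * δ) + δ * δ := by
          rw [two_smul]; ring
        rw [e2, smul_add, smul_smul]
        rw [inv_mul_cancel₀ (two_ne_zero' L), one_smul]
        ring
      rw [e]
      have hneg : PB (-((ps X d - 1) * δ)) ((1 / 2) ^ (j + 1 + 2)) := by
        have h3 := hx.mul hδ
        intro n
        rw [map_neg, norm_neg]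
        refine (h3 n).trans (le_of_eq ?_)
        ring
      refine hneg.sub ?_
      intro n
      rw [PowerSeries.coeff_smul, smul_eq_mul, norm_mul, norm_inv, norm_two]
      have h4 := (hδ.mul hδ) n
      calc (1 / 2 : ℝ)⁻¹ * ‖(δ * δ).coeff n‖ ≤ (1 / 2)⁻¹ * ((1 / 2) ^ (j + 2) * (1 / 2) ^ (j + 2)) := by
            gcongr
        _ = (1 / 2) ^ (2 * j + 3) := by
            rw [← pow_add, show j + 2 + (j + 2) = (2 * j + 3) + 1 by ring, pow_succ]
            norm_num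
            ring
        _ ≤ (1 / 2) ^ (j + 1 + 2) :=
            pow_le_pow_of_le_one (by norm_num) (by norm_num) (by omega)
  refine V.closed fun ε hε => ?_
  obtain ⟨j, hj⟩ := exists_pow_lt_of_lt_one hε (by norm_num : (1 / 2 : ℝ) < 1)
  obtain ⟨Y, hY, h⟩ := key j
  refine ⟨Y, hY, h.mono (le_trans ?_ hj.le)⟩
  exact pow_le_pow_of_le_one (by norm_num) (by norm_num) (by omega)

/-- **cancellation** -/
theorem cancel [NeZero N] (hX : X ∈ V 1) (h1 : Near 1 X oneF (1 / 2)) (hΦ : BddF N Φ C)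
    (h : mulF X Φ ∈ V N) : Φ ∈ V N := by
  have key : ∀ j : ℕ, ∃ Ψ ∈ V N, Near N Ψ Φ ((1 / 2) ^ j * C) := by
    intro j
    induction j with
    | zero =>
      refine ⟨0, zero_mem _, fun d hd n => ?_⟩
      simpa using hΦ d hd n
    | succ j ih =>
      obtain ⟨Ψ, hΨ, hn⟩ := ih
      refine ⟨mulF X Φ + (Ψ - mulF X Ψ), add_mem h (sub_mem hΨ (V.mul hX hΨ)),
        near_iff.2 fun d hd => ?_⟩
      have hδ := near_iff.1 hn d hd
      have hx := near_iff.1 h1 d (coprime_of_mul hd)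
      rw [ps_one] at hx
      have e : ps (mulF X Φ + (Ψ - mulF X Ψ)) d - ps Φ d =
          0 - (ps X d - 1) * (ps Ψ d - ps Φ d) := by
        rw [ps_add, ps_sub, ps_mul, ps_mul]; ring
      rw [e]
      have h0 : PB (0 : PowerSeries L) ((1 / 2) ^ (j + 1) * C) := fun n => by
        rw [map_zero, norm_zero]
        have := hΦ.nonneg
        positivity
      refine h0.sub ((hx.mul hδ).mono (le_of_eq ?_))
      rw [pow_succ]; ring
  refine V.closed fun ε hε => ?_
  have hC := hΦ.nonneg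
  obtain ⟨j, hj⟩ := exists_pow_lt_of_lt_one (show 0 < ε / (C + 1) by positivity)
    (by norm_num : (1 / 2 : ℝ) < 1)
  have hjC : (1 / 2 : ℝ) ^ j * C ≤ ε := by
    have h1 : (1 / 2 : ℝ) ^ j * (C + 1) ≤ ε := by
      rw [lt_div_iff₀ (by positivity)] at hj; exact hj.le
    have h2 : (0 : ℝ) < (1 / 2) ^ j := by positivity
    nlinarith
  obtain ⟨Ψ, hΨ, h⟩ := key j
  exact ⟨Ψ, hΨ, h.mono hjC⟩

end

end Vale.Agent.P022.H390E
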