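import Vale.Agent.P022.H390E.Unit2

/-!
# P022: the theta families are in `V N`, for every discriminant
-/

namespace Vale.Agent.P022.H390E

open Vale.Agent.P022.H390
open UpperHalfPlane hiding I
open ModularForm CongruenceSubgroup Matrix.SpecialLinearGroup
open scoped MatrixGroups ModularForm Manifold Real Nat NumberTheorySymbols

noncomputable section

variable {R N M : ℕ} {q : QD} [NeZero M] [NeZero N] {h : ℤ × ℤ → ℂ}

/-- the level condition -/
def HN (q : QD) (M N : ℕ) : Prop :=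
  Nat.Coprime N 2 ∧ ∃ e m : ℕ, q.D = 2 ^ e * m ∧ Odd m ∧ (m * M) ^ 2 ∣ N

lemma four_dvd_D (h2 : ¬ Odd q.D) : 4 ∣ q.D := by
  have h1 := q.D_eq
  have hB : q.B % 2 = 0 := by
    by_contra hB
    have hB1 : q.B % 2 = 1 := by omega
    obtain ⟨b, hb⟩ : ∃ b, q.B = 2 * b + 1 := ⟨q.B / 2, by omega⟩
    apply h2
    have h3 : (q.D : ℤ) = 2 * (2 * (q.A * q.C - b ^ 2 - b) - 1) + 1 := by rw [h1, hb]; ring
    rw [← Int.odd_coe_nat]
    exact ⟨_, h3⟩
  obtain ⟨b, hb⟩ := Int.dvd_of_emod_eq_zero hB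
  have h3 : (q.D : ℤ) = 4 * (q.A * q.C - b ^ 2) := by rw [h1, hb]; ring
  have h4 : ((4 : ℕ) : ℤ) ∣ q.D := ⟨q.A * q.C - b ^ 2, by rw [h3]; push_cast; ring⟩
  exact_mod_cast h4

lemma J_split {D e m d : ℕ} (hD : D = 2 ^ e * m) :
    J(-(D : ℤ) | d) = J(-1 | d) * J(2 | d) ^ e * J((m : ℤ) | d) := by
  have : (-(D : ℤ)) = (-1) * 2 ^ e * m := by rw [hD]; push_cast; ring
  rw [this, jacobiSym.mul_left, jacobiSym.mul_left, jacobiSym.pow_left]

lemma J_m_one {m d : ℕ} (hm : Odd m) (hd : Odd d) (h1 : (m : ℤ) ∣ (d : ℤ) - 1) :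
    (m % 4 = 1 → J((m : ℤ) | d) = 1) ∧ (m % 4 = 3 → J((m : ℤ) | d) = J(-1 | d)) := by
  have hJ : J((d : ℤ) | m) = 1 := by
    rw [jacobiSym.mod_left' (a₂ := 1), jacobiSym.one_left]
    refine (Int.modEq_iff_dvd.2 ?_ : (d : ℤ) ≡ 1 [ZMOD m])
    rw [← dvd_neg, neg_sub]; exact h1
  constructor
  · intro h
    rw [jacobiSym.quadratic_reciprocity_one_mod_four h hd, hJ]
  · intro h
    have h2 := jacobi_recip h hd
    rw [hJ] at h2
    have e : (-(m : ℤ)) = (-1) * m := by ring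
    rw [e, jacobiSym.mul_left] at h2
    rcases Int.eq_one_or_neg_one_of_mul_eq_one' h2 with h3 | h3 <;> rw [h3.1, h3.2]

lemma J_pm {a : ℤ} {d : ℕ} (h : Int.gcd a d = 1) : J(a | d) * J(a | d) = 1 := by
  have := jacobiSym.sq_one h
  rwa [sq] at this

lemma gcd_neg_one (d : ℕ) : Int.gcd (-1) d = 1 := by
  rw [Int.gcd_eq_natAbs]; simp

lemma gcd_two {d : ℕ} (hd : Odd d) : Int.gcd 2 d = 1 := by
  rw [Int.gcd_eq_natAbs]
  exact (Nat.coprime_two_left.2 hd)

lemma sq_pow_even {x : ℤ} (h : x * x = 1) (e : ℕ) : x ^ (2 * e) = 1 := by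
  rw [pow_mul, sq, h, one_pow]

lemma exists_unit (e m R : ℕ) (hm : Odd m) : ∃ u : UF (R + 6), ∀ d : ℕ, Odd d →
    (m : ℤ) ∣ (d : ℤ) - 1 → J(-1 | d) * J(2 | d) ^ e * J((m : ℤ) | d) = u.χ d := by
  have k4 : ∀ d : ℕ, Odd d → (U4 R).χ d = J(-1 | d) := by
    intro d hd
    change J(-(q4.D : ℤ) | d) = _
    rw [q4_D, J_split (D := 4) (e := 2) (m := 1) (by norm_num)]
    rw [sq, J_pm (gcd_two hd)]
    simp
  have k8 : ∀ d : ℕ, Odd d → (U8 R).χ d = J(-1 | d) * J(2 | d) := by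
    intro d hd
    change J(-(q8.D : ℤ) | d) = _
    rw [q8_D, J_split (D := 8) (e := 3) (m := 1) (by norm_num)]
    have := J_pm (gcd_two hd)
    rw [pow_succ, sq, this]
    simp
  rcases Nat.odd_mod_four_iff.mp (Nat.odd_iff.mp hm) with h4 | h4
  · rcases Nat.even_or_odd e with he | he
    · obtain ⟨f, rfl⟩ := he
      refine ⟨U4 R, fun d hd h1 => ?_⟩
      rw [k4 d hd, (J_m_one hm hd h1).1 h4, ← two_mul, sq_pow_even (J_pm (gcd_two hd))]
      ring
    · obtain ⟨f, rfl⟩ := he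
      refine ⟨U8 R, fun d hd h1 => ?_⟩
      rw [k8 d hd, (J_m_one hm hd h1).1 h4, pow_succ, sq_pow_even (J_pm (gcd_two hd))]
      ring
  · rcases Nat.even_or_odd e with he | he
    · obtain ⟨f, rfl⟩ := he
      refine ⟨UF.one (R + 6), fun d hd h1 => ?_⟩
      rw [(J_m_one hm hd h1).2 h4, ← two_mul, sq_pow_even (J_pm (gcd_two hd)), mul_one,
        J_pm (gcd_neg_one d)]
      rfl
    · obtain ⟨f, rfl⟩ := he
      refine ⟨(U4 R).mul (U8 R), fun d hd h1 => ?_⟩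
      have : ((U4 R).mul (U8 R)).χ d = (U4 R).χ d * (U8 R).χ d := rfl
      rw [this, k4 d hd, k8 d hd, (J_m_one hm hd h1).2 h4, pow_succ,
        sq_pow_even (J_pm (gcd_two hd))]
      ring

theorem WE_base_all (hN : HN q M N) (hh : Per M h) (a : ℕ) :
    WE q (fun v => iota (h v * q.lam v ^ a)) ∈ V N := by
  obtain ⟨hN2, e, m, hD, hm, hN⟩ := hN
  by_cases hodd : Odd q.D
  · -- odd discriminant
    have he : e = 0 := by
      by_contra he
      obtain ⟨f, rfl⟩ := Nat.exists_eq_succ_of_ne_zero he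
      rw [hD, Nat.odd_iff] at hodd
      have : 2 ^ (f + 1) * m = 2 * (2 ^ f * m) := by ring
      rw [Nat.succ_eq_add_one, this] at hodd
      omega
    subst he
    rw [pow_zero, one_mul] at hD
    have h1 := QD.base_mem (q := q) hh hodd (N := N) (by rw [hD]; exact hN) a
    rw [QD.mem_GS] at h1
    refine V.congr (fun d hd => ?_) h1
    have hd2 : Odd d := Nat.coprime_two_right.1 (Nat.Coprime.coprime_mul_right_right hd)
    funext n
    rw [QD.WF, WE, jacobi_recip (QD.D_mod_four hodd) hd2]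
  · have h4 := four_dvd_D hodd
    obtain ⟨u, hu⟩ := exists_unit e m (2 * e) hm
    have hMN : M ∣ N := dvd_trans (Dvd.intro_left m rfl : M ∣ m * M)
      ((dvd_pow_self _ two_ne_zero).trans hN)
    have hmN : m ∣ N := dvd_trans (Dvd.intro _ rfl : m ∣ m * M)
      ((dvd_pow_self _ two_ne_zero).trans hN)
    refine WE_base u h4 hh hN2 hMN ?_ ?_ a
    · rw [hD]
      have e1 : (2 ^ e * m * M) ^ 2 = (m * M) ^ 2 * 2 ^ (2 * e) := by
        rw [pow_mul' 2 2 e]; ring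
      rw [e1]
      exact Nat.mul_dvd_mul hN (pow_dvd_pow 2 (by omega))
    · intro d hd h1
      have hd2 : Odd d := Nat.coprime_two_right.1 (Nat.Coprime.coprime_mul_right_right hd)
      rw [J_split hD]
      exact hu d hd2 (dvd_trans (by exact_mod_cast hmN) h1)

end

end Vale.Agent.P022.H390E
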