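import Vale.Agent.P022.H390.ThMF
import Vale.Agent.P022.H390.E2V

/-!
# P022: functions with a 2-adically bounded expansion in powers of `q^{1/H}`
-/

namespace Vale.Agent.P022.H390E

open Vale.Agent.P022.H390
open UpperHalfPlane hiding I
open ModularForm CongruenceSubgroup Matrix.SpecialLinearGroup
open scoped MatrixGroups ModularForm Manifold Real

noncomputable section

variable {f g : ℍ → ℂ} {H K : ℕ} {C C' : ℝ} {k : ℤ}

/-- `f(Hz)` -/
def sc (H : ℕ) (f : ℍ → ℂ) : ℍ → ℂ := fun z => f (mat H 0 0 1 • z)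

lemma coe_sc (hH : 0 < H) (z : ℍ) : ((mat H 0 0 1 • z : ℍ) : ℂ) = H * z := by
  rw [mat_smul_coe (by exact_mod_cast hH) one_pos]; push_cast; ring

lemma sc_one (f : ℍ → ℂ) : sc 1 f = f := by
  funext z
  rw [sc]
  congr 1
  ext
  rw [coe_sc one_pos]; simp

lemma sc_sc (hH : 0 < H) (hK : 0 < K) (f : ℍ → ℂ) : sc K (sc H f) = sc (H * K) f := by
  funext z
  rw [sc, sc, sc]
  congr 1
  ext
  rw [coe_sc hH, coe_sc hK, coe_sc (Nat.mul_pos hH hK)]; push_cast; ring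

lemma sc_eq_dbl (f : ℍ → ℂ) : sc 2 f = dbl f := rfl

lemma qq_sc (hK : 0 < K) (z : ℍ) (m : ℕ) : qq ((mat K 0 0 1 • z : ℍ) : ℂ) ^ m = qq z ^ (m * K) := by
  rw [qq_pow, qq_pow, coe_sc hK]
  congr 1; push_cast; ring

lemma hasSum_sc (hK : 0 < K) (hf : Good 1 f) (z : ℍ) :
    HasSum (fun n => (if K ∣ n then qc f (n / K) else 0) * qq z ^ n) (sc K f z) := by
  have h1 := hf.hasSum one_pos (mat K 0 0 1 • z)
  rw [← hasSum_mul_iff (ℓ := K) hK.ne' (by
    intro m hm; rw [if_neg hm, zero_mul])]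
  refine h1.congr_fun fun m => ?_
  rw [if_pos (Dvd.intro_left m rfl), Nat.mul_div_cancel _ hK]
  congr 1
  exact (qq_sc hK z m).symm

lemma Good_sc (hK : 0 < K) (hf : Good 1 f) : Good 1 (sc K f) := good_of_hasSum (hasSum_sc hK hf)

lemma qc_sc (hK : 0 < K) (hf : Good 1 f) (n : ℕ) :
    qc (sc K f) n = if K ∣ n then qc f (n / K) else 0 :=
  qc_unique (c := fun n => if K ∣ n then qc f (n / K) else 0)
    ((Good_sc hK hf).analytic one_pos) (hasSum_sc hK hf) n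

/-- bounded coefficients for a 1-periodic function -/
def Bq (C : ℝ) (f : ℍ → ℂ) : Prop := Good 1 f ∧ ∀ n, ‖iota (qc f n)‖ ≤ C

lemma Bq.pb (h : Bq C f) : PB (qs 1 f) C := fun n => by rw [coeff_qs_one]; exact h.2 n

lemma Bq.of_pb (h : Good 1 f) (h2 : PB (qs 1 f) C) : Bq C f :=
  ⟨h, fun n => by have := h2 n; rwa [coeff_qs_one] at this⟩

lemma Bq.nonneg (h : Bq C f) : 0 ≤ C := (norm_nonneg _).trans (h.2 0)

lemma Bq.sc (hK : 0 < K) (h : Bq C f) : Bq C (sc K f) := by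
  refine ⟨Good_sc hK h.1, fun n => ?_⟩
  rw [qc_sc hK h.1]
  split_ifs
  · exact h.2 _
  · simpa using h.nonneg

/-- `f` has an expansion in powers of `q^{1/H}`, for some `H`, with coefficients of 2-adic size at
most `C` -/
def Bd (C : ℝ) (f : ℍ → ℂ) : Prop := ∃ H : ℕ, 0 < H ∧ Bq C (sc H f)

lemma Bd.nonneg (h : Bd C f) : 0 ≤ C := by
  obtain ⟨H, _, h1⟩ := h
  exact h1.nonneg

lemma Bd.mono (h : Bd C f) (hC : C ≤ C') : Bd C' f := by
  obtain ⟨H, hH, h1, h2⟩ := h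
  exact ⟨H, hH, h1, fun n => (h2 n).trans hC⟩

lemma Bd.of_Bq (h : Bq C f) : Bd C f := ⟨1, one_pos, by rw [sc_one]; exact h⟩

lemma Bd.common (h : Bd C f) (h' : Bd C' g) : ∃ H : ℕ, 0 < H ∧ Bq C (sc H f) ∧ Bq C' (sc H g) := by
  obtain ⟨H, hH, h1⟩ := h
  obtain ⟨K, hK, h2⟩ := h'
  refine ⟨H * K, Nat.mul_pos hH hK, ?_, ?_⟩
  · rw [← sc_sc hH hK]; exact h1.sc hK
  · rw [mul_comm, ← sc_sc hK hH]; exact h2.sc hH

lemma sc_add (H : ℕ) (f g : ℍ → ℂ) : sc H (f + g) = sc H f + sc H g := rfl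
lemma sc_mul (H : ℕ) (f g : ℍ → ℂ) : sc H (f * g) = sc H f * sc H g := rfl
lemma sc_smul (H : ℕ) (a : ℂ) (f : ℍ → ℂ) : sc H (a • f) = a • sc H f := rfl

lemma Bq.add (h : Bq C f) (h' : Bq C g) : Bq C (f + g) :=
  Bq.of_pb (h.1.add h'.1) (by rw [qs_add one_pos h.1 h'.1]; exact h.pb.add h'.pb)

lemma Bq.mul (h : Bq C f) (h' : Bq C' g) : Bq (C * C') (f * g) :=
  Bq.of_pb (h.1.mul h'.1) (by rw [qs_mul one_pos h.1 h'.1]; exact h.pb.mul h'.pb)

lemma Bq.smul (a : ℂ) (h : Bq C f) : Bq (‖iota a‖ * C) (a • f) := by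
  refine Bq.of_pb (h.1.smul a) ?_
  rw [qs_smul one_pos a h.1]
  intro n
  rw [PowerSeries.coeff_smul, smul_eq_mul, norm_mul]
  exact mul_le_mul_of_nonneg_left (h.pb n) (norm_nonneg _)

lemma Bd.add (h : Bd C f) (h' : Bd C g) : Bd C (f + g) := by
  obtain ⟨H, hH, h1, h2⟩ := h.common h'
  exact ⟨H, hH, by rw [sc_add]; exact h1.add h2⟩

lemma Bd.mul (h : Bd C f) (h' : Bd C' g) : Bd (C * C') (f * g) := by
  obtain ⟨H, hH, h1, h2⟩ := h.common h'
  exact ⟨H, hH, by rw [sc_mul]; exact h1.mul h2⟩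

lemma Bd.smul (a : ℂ) (h : Bd C f) : Bd (‖iota a‖ * C) (a • f) := by
  obtain ⟨H, hH, h1⟩ := h
  exact ⟨H, hH, by rw [sc_smul]; exact h1.smul a⟩

lemma Bd.smul_le {a : ℂ} (ha : ‖iota a‖ ≤ 1) (h : Bd C f) : Bd C (a • f) :=
  (h.smul a).mono (by
    have := h.nonneg
    calc ‖iota a‖ * C ≤ 1 * C := mul_le_mul_of_nonneg_right ha this
      _ = C := one_mul C)

lemma Bd.neg (h : Bd C f) : Bd C (-f) := by
  have := h.smul_le (a := -1) (by rw [map_neg, map_one, norm_neg, norm_one])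
  have e : (-1 : ℂ) • f = -f := by funext z; simp
  rwa [e] at this

lemma Bd.sub (h : Bd C f) (h' : Bd C g) : Bd C (f - g) := by
  rw [sub_eq_add_neg]; exact h.add h'.neg

lemma Bd.one : Bd 1 (1 : ℍ → ℂ) :=
  Bd.of_Bq (Bq.of_pb Good.one (by rw [qs_one]; exact PB.one))

lemma Bd.zero (hC : 0 ≤ C) : Bd C (0 : ℍ → ℂ) := by
  have := (Bd.one).smul 0
  rw [zero_smul, map_zero, norm_zero, zero_mul] at this
  exact this.mono hC

lemma Bd.pow (h : Bd C f) (m : ℕ) : Bd (C ^ m) (f ^ m) := by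
  induction m with
  | zero => rw [pow_zero, pow_zero]; exact Bd.one
  | succ m ih => rw [pow_succ, pow_succ]; exact ih.mul h

lemma Bd.sum {ι : Type*} (s : Finset ι) (F : ι → ℍ → ℂ) (hC : 0 ≤ C) (h : ∀ i ∈ s, Bd C (F i)) :
    Bd C (∑ i ∈ s, F i) := by
  classical
  induction s using Finset.induction_on with
  | empty => rw [Finset.sum_empty]; exact Bd.zero hC
  | insert i s hi ih =>
    rw [Finset.sum_insert hi]
    exact (h i (Finset.mem_insert_self _ _)).add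
      (ih fun j hj => h j (Finset.mem_insert_of_mem hj))

/-- `f ≡ 1` implies `f^(2^j) ≡ 1` to higher order -/
lemma Bd.pow_two_pow (h : Bd (1 / 2) (f - 1)) (j : ℕ) : Bd ((1 / 2) ^ (j + 1)) (f ^ (2 ^ j) - 1) := by
  obtain ⟨H, hH, h1⟩ := h
  refine ⟨H, hH, ?_⟩
  have e1 : sc H (f - 1) = sc H f - 1 := rfl
  have e2 : sc H (f ^ (2 ^ j) - 1) = (sc H f) ^ (2 ^ j) - 1 := rfl
  rw [e1] at h1
  rw [e2]
  have hg : Good 1 (sc H f) := by
    have := h1.1.add (Good.one (h := 1))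
    have e : sc H f - 1 + 1 = sc H f := by ring
    rwa [e] at this
  have e3 : ∀ u : ℍ → ℂ, Good 1 u → qs 1 (u - 1) = qs 1 u - 1 := by
    intro u hu
    have h3 : u - 1 = u + (-1 : ℂ) • (1 : ℍ → ℂ) := by funext z; simp [sub_eq_add_neg]
    rw [h3, qs_add one_pos hu (Good.one.smul _), qs_smul one_pos _ Good.one, qs_one, map_neg,
      map_one]
    simp [sub_eq_add_neg]
  refine Bq.of_pb ?_ ?_
  · have : sc H f ^ 2 ^ j - 1 = sc H f ^ 2 ^ j + (-1 : ℂ) • (1 : ℍ → ℂ) := by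
      funext z; simp [sub_eq_add_neg]
    rw [this]
    exact (hg.pow _).add (Good.one.smul _)
  · rw [e3 _ (hg.pow _), qs_pow one_pos hg]
    apply PB.pow_two_pow
    have := h1.pb
    rwa [e3 _ hg] at this

/-- the coefficients of a 1-periodic function are bounded -/
lemma Bd.qc_le (h : Bd C f) (hf : Good 1 f) (n : ℕ) : ‖iota (qc f n)‖ ≤ C := by
  obtain ⟨H, hH, h1⟩ := h
  have := h1.2 (n * H)
  rw [qc_sc hH hf, if_pos (dvd_mul_left _ _), Nat.mul_div_cancel _ hH] at this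
  exact this

lemma sc_slash (hH : 0 < H) (f : ℍ → ℂ) : ∃ a : ℂ, a ≠ 0 ∧ f = a • ((sc H f) ∣[(1 : ℤ)] mat 1 0 0 H) := by
  have hHz : (0 : ℤ) < H := by exact_mod_cast hH
  have hHC : (H : ℂ) ≠ 0 := by exact_mod_cast hH.ne'
  refine ⟨H, hHC, ?_⟩
  funext z
  rw [Pi.smul_apply, mat_slash_apply one_pos hHz, sub_self, zpow_zero, mul_one, sc, smul_eq_mul]
  have : mat (H : ℤ) 0 0 1 • mat 1 0 0 (H : ℤ) • z = z := by
    ext
    rw [coe_sc hH, mat_smul_coe one_pos hHz]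
    push_cast
    field_simp
    ring
  rw [this, zpow_neg, zpow_one]
  push_cast
  field_simp

lemma Bd.holo (h : Bd C f) : MDiff f := by
  obtain ⟨H, hH, h1⟩ := h
  obtain ⟨a, _, ha⟩ := sc_slash hH f
  rw [ha]
  exact (h1.1.holo.slash 1 _).const_smul _

lemma Bd.bdd (h : Bd C f) : IsBoundedAtImInfty f := by
  obtain ⟨H, hH, h1⟩ := h
  obtain ⟨a, _, ha⟩ := sc_slash hH f
  have h2 : IsBoundedAtImInfty ((sc H f) ∣[(1 : ℤ)] mat 1 0 0 H) :=
    h1.1.bdd.slash _ (mat_10 (by simpa using hH.ne'))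
  rw [ha]
  exact h2.const_smul_left (c := a)

lemma Bd.good (h : Bd C f) (hT : f ∣[k] mT = f) : Good 1 f := good_of_T hT h.holo h.bdd

lemma Bd.dbl (h : Bd C f) : Bd C (dbl f) := by
  obtain ⟨H, hH, h1⟩ := h
  refine ⟨H, hH, ?_⟩
  rw [← sc_eq_dbl, sc_sc two_pos hH, mul_comm, ← sc_sc hH two_pos]
  exact h1.sc two_pos

lemma Bd.hlf (h : Bd C f) : Bd C (hlf f) := by
  obtain ⟨H, hH, h1⟩ := h
  refine ⟨2 * H, by omega, ?_⟩
  have : sc (2 * H) (H390.hlf f) = sc H f := by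
    funext z
    rw [sc, sc, H390.hlf]
    congr 1
    ext
    rw [coe_hlf, coe_sc (by omega), coe_sc hH]; push_cast; ring
  rw [this]; exact h1

lemma norm_root {x : ℂ} {n : ℕ} (hn : n ≠ 0) (hx : x ^ n = 1) : ‖iota x‖ = 1 := by
  have h1 : ‖iota x‖ ^ n = 1 := by rw [← norm_pow, ← map_pow, hx, map_one, norm_one]
  exact (pow_eq_one_iff_of_nonneg (norm_nonneg _) hn).1 h1

lemma Bd.slash_T (h : Bd C f) (k : ℤ) : Bd C (f ∣[k] mT) := by
  obtain ⟨H, hH, h1⟩ := h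
  refine ⟨H, hH, ?_⟩
  have hHC : (H : ℂ) ≠ 0 := by exact_mod_cast hH.ne'
  set ζ : ℂ := Complex.exp (2 * π * Complex.I * (1 / H)) with hζ
  have hζ1 : ζ ^ H = 1 := by
    rw [hζ, ← Complex.exp_nat_mul]
    have : (H : ℂ) * (2 * π * Complex.I * (1 / H)) = 2 * π * Complex.I := by field_simp
    rw [this, Complex.exp_two_pi_mul_I]
  have key : ∀ z : ℍ, HasSum (fun n => (qc (sc H f) n * ζ ^ n) * qq z ^ n)
      (sc H (f ∣[k] mT) z) := by
    intro z
    have hz : 0 < ((z : ℂ) + 1 / H).im := by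
      have : ((1 : ℂ) / H) = ((1 / H : ℝ) : ℂ) := by push_cast; rfl
      rw [this, Complex.add_im, Complex.ofReal_im, add_zero]; exact z.im_pos
    have h2 := h1.1.hasSum one_pos ⟨(z : ℂ) + 1 / H, hz⟩
    have e : sc H (f ∣[k] mT) z = sc H f ⟨(z : ℂ) + 1 / H, hz⟩ := by
      rw [sc, sc, H390.slash_T]
      congr 1
      ext
      rw [coe_sc hH, coe_vadd, coe_sc hH]
      push_cast
      change 1 + (H : ℂ) * z = H * ((z : ℂ) + 1 / H)
      field_simp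
      ring
    rw [e]
    refine h2.congr_fun fun n => ?_
    change qc (sc H f) n * ζ ^ n * qq z ^ n = qc (sc H f) n * qq ((z : ℂ) + 1 / H) ^ n
    rw [mul_assoc]
    congr 1
    rw [qq_eq, qq_eq, hζ, ← mul_pow, ← Complex.exp_add]
    congr 2; ring
  have hg := good_of_hasSum key
  refine ⟨hg, fun n => ?_⟩
  rw [qc_unique (hg.analytic one_pos) key n, map_mul, norm_mul]
  have h3 : ‖iota (ζ ^ n)‖ = 1 := by
    apply norm_root hH.ne'
    rw [← pow_mul, mul_comm, pow_mul, hζ1, one_pow]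
  rw [h3, mul_one]
  exact h1.2 n

end

end Vale.Agent.P022.H390E
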