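import Vale.Agent.P022.H390E.ThB

/-!
# P022: representation numbers of `x² + y²` and `x² + 2 y²` modulo `8`
-/

namespace Vale.Agent.P022.H390E

open Vale.Agent.P022.H390

noncomputable section

open scoped Classical in
/-- indicator of positive squares -/
def s1 (n : ℕ) : ℕ := if 0 < n ∧ IsSquare n then 1 else 0

/-- number of integers with square `n` -/
def tt (n : ℕ) : ℕ := 2 * s1 n + (if n = 0 then 1 else 0)

open scoped Classical in
/-- the integers with square `m` -/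
def S1 (m : ℕ) : Finset ℤ := if IsSquare m then {(Nat.sqrt m : ℤ), -(Nat.sqrt m : ℤ)} else ∅

lemma mem_S1 {m : ℕ} {x : ℤ} : x ∈ S1 m ↔ x ^ 2 = m := by
  classical
  rw [S1]
  split_ifs with h
  · obtain ⟨k, rfl⟩ := h
    rw [Nat.sqrt_eq, Finset.mem_insert, Finset.mem_singleton]
    push_cast
    rw [← sq, sq_eq_sq_iff_eq_or_eq_neg]
  · constructor
    · intro h0; exact absurd h0 (Finset.notMem_empty _)
    · intro h0
      exfalso
      apply h
      refine ⟨x.natAbs, ?_⟩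
      have : ((x.natAbs * x.natAbs : ℕ) : ℤ) = m := by
        push_cast
        rw [← h0, ← sq, sq_abs]
      exact_mod_cast this.symm

lemma card_S1 (m : ℕ) : (S1 m).card = tt m := by
  classical
  rw [S1, tt, s1]
  by_cases h : IsSquare m
  · rw [if_pos h]
    by_cases h0 : m = 0
    · subst h0; simp
    · rw [if_neg h0, if_pos ⟨Nat.pos_of_ne_zero h0, h⟩, Finset.card_pair]
      intro he
      have h1 : (Nat.sqrt m : ℤ) = 0 := by linarith
      have h2 : Nat.sqrt m = 0 := by exact_mod_cast h1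
      obtain ⟨k, rfl⟩ := h
      rw [Nat.sqrt_eq] at h2
      exact h0 (by rw [h2])
  · have h0 : m ≠ 0 := by rintro rfl; exact h ⟨0, rfl⟩
    rw [if_neg h, if_neg h0, if_neg (fun hh => h hh.2)]; rfl

/-- the integers with `a x² = n` -/
def Sa (a n : ℕ) : Finset ℤ := if a ∣ n then S1 (n / a) else ∅

lemma mem_Sa {a n : ℕ} (ha : 0 < a) {x : ℤ} : x ∈ Sa a n ↔ (a : ℤ) * x ^ 2 = n := by
  have haZ : (a : ℤ) ≠ 0 := by exact_mod_cast ha.ne'
  rw [Sa]
  split_ifs with h
  · obtain ⟨m, rfl⟩ := h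
    rw [mem_S1, Nat.mul_div_cancel_left _ ha]
    push_cast
    constructor
    · intro h; rw [h]
    · intro h; exact mul_left_cancel₀ haZ h
  · constructor
    · intro h0; exact absurd h0 (Finset.notMem_empty _)
    · intro h0
      exact absurd (by exact_mod_cast (Dvd.intro _ h0 : (a : ℤ) ∣ n)) h

lemma card_Sa (a n : ℕ) : (Sa a n).card = if a ∣ n then tt (n / a) else 0 := by
  rw [Sa]
  split_ifs
  · exact card_S1 _
  · rfl

/-- the form `x² + a y²` -/
def qa (a : ℕ) (ha : 0 < a) : QD where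
  A := 1
  B := 0
  C := a
  m1 := 0
  m2 := 0
  hA := one_pos
  hD := by push_cast; have : (0 : ℤ) < a := by exact_mod_cast ha
           linarith
  hm := by simp [Qc]

lemma qa_Q {a : ℕ} (ha : 0 < a) (v : ℤ × ℤ) : (qa a ha).Q v = v.1 ^ 2 + a * v.2 ^ 2 := by
  simp only [QD.Q, qa]; ring

lemma qa_D {a : ℕ} (ha : 0 < a) : (qa a ha).D = 4 * a := by
  have h := (qa a ha).D_eq
  have : ((qa a ha).D : ℤ) = ((4 * a : ℕ) : ℤ) := by
    rw [h]; simp only [qa]; push_cast; ring
  exact_mod_cast this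

lemma card_fib {a : ℕ} (ha : 0 < a) (n : ℕ) : ((qa a ha).fib n).card =
    ∑ p ∈ Finset.HasAntidiagonal.antidiagonal n, tt p.1 * (if a ∣ p.2 then tt (p.2 / a) else 0) := by
  have hmem : ∀ v : ℤ × ℤ, v ∈ (qa a ha).fib n ↔ v.1 ^ 2 + a * v.2 ^ 2 = (n : ℤ) := by
    intro v
    rw [QD.mem_fib, ← qa_Q ha, ← QD.Qn_eq]
    exact_mod_cast Iff.rfl
  set f : ℤ × ℤ → ℕ × ℕ := fun v => (v.1.natAbs ^ 2, a * v.2.natAbs ^ 2) with hf
  have hmaps : ∀ v ∈ (qa a ha).fib n, f v ∈ Finset.HasAntidiagonal.antidiagonal n := by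
    intro v hv
    rw [hmem] at hv
    rw [Finset.HasAntidiagonal.mem_antidiagonal]
    have : ((v.1.natAbs ^ 2 + a * v.2.natAbs ^ 2 : ℕ) : ℤ) = n := by
      push_cast
      rw [sq_abs, sq_abs]; exact hv
    exact_mod_cast this
  rw [Finset.card_eq_sum_card_fiberwise hmaps]
  refine Finset.sum_congr rfl fun p hp => ?_
  rw [Finset.HasAntidiagonal.mem_antidiagonal] at hp
  rw [← card_S1, ← card_Sa, ← Finset.card_product]
  congr 1
  ext v
  rw [Finset.mem_filter, Finset.mem_product, mem_S1, mem_Sa ha, hmem]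
  have e1 : f v = p ↔ (v.1 ^ 2 = (p.1 : ℤ) ∧ (a : ℤ) * v.2 ^ 2 = (p.2 : ℤ)) := by
    rw [hf, Prod.ext_iff]
    dsimp only
    have a1 : v.1.natAbs ^ 2 = p.1 ↔ v.1 ^ 2 = (p.1 : ℤ) := by
      rw [← sq_abs, ← Int.natCast_natAbs]; exact_mod_cast Iff.rfl
    have a2 : a * v.2.natAbs ^ 2 = p.2 ↔ (a : ℤ) * v.2 ^ 2 = (p.2 : ℤ) := by
      rw [← sq_abs v.2, ← Int.natCast_natAbs]; exact_mod_cast Iff.rfl
    rw [a1, a2]
  rw [e1]
  constructor
  · exact fun h => h.2
  · intro h
    refine ⟨?_, h⟩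
    rw [h.1, h.2]; exact_mod_cast hp

/-- `s1 (n/2)` if `n` is even -/
def s2 (n : ℕ) : ℕ := if 2 ∣ n then s1 (n / 2) else 0

lemma s1_zero : s1 0 = 0 := by simp [s1]

lemma s2_zero : s2 0 = 0 := by simp [s2, s1_zero]

/-- squares modulo `2` -/
lemma antidiag_sq (s : ℕ → ZMod 2) (n : ℕ) :
    ∑ p ∈ Finset.HasAntidiagonal.antidiagonal n, s p.1 * s p.2 = if 2 ∣ n then s (n / 2) else 0 := by
  classical
  rw [← Finset.sum_filter_add_sum_filter_not _ (fun p : ℕ × ℕ => p.1 = p.2)]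
  have h2 : ∑ p ∈ (Finset.HasAntidiagonal.antidiagonal n).filter (fun p : ℕ × ℕ => ¬ p.1 = p.2),
      s p.1 * s p.2 = 0 := by
    refine Finset.sum_involution (fun p _ => p.swap) ?_ ?_ ?_ ?_
    · intro p _
      simp only [Prod.fst_swap, Prod.snd_swap]
      rw [mul_comm (s p.2)]
      exact CharTwo.add_self_eq_zero _
    · intro p hp _ he
      rw [Finset.mem_filter] at hp
      exact hp.2 (congrArg Prod.snd he)
    · intro p hp
      rw [Finset.mem_filter, Finset.HasAntidiagonal.mem_antidiagonal] at hp ⊢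
      exact ⟨by simp only [Prod.fst_swap, Prod.snd_swap]; rw [add_comm]; exact hp.1,
        fun h => hp.2 h.symm⟩
    · intro p _; exact Prod.swap_swap p
  rw [h2, add_zero]
  have hs : ∀ x : ZMod 2, x * x = x := by decide
  split_ifs with h
  · obtain ⟨m, rfl⟩ := h
    have : (Finset.HasAntidiagonal.antidiagonal (2 * m)).filter (fun p : ℕ × ℕ => p.1 = p.2) =
        {(m, m)} := by
      ext p
      rw [Finset.mem_filter, Finset.HasAntidiagonal.mem_antidiagonal, Finset.mem_singleton, Prod.ext_iff]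
      dsimp only
      omega
    rw [this, Finset.sum_singleton, Nat.mul_div_cancel_left _ two_pos, hs]
  · have : (Finset.HasAntidiagonal.antidiagonal n).filter (fun p : ℕ × ℕ => p.1 = p.2) = ∅ := by
      rw [Finset.eq_empty_iff_forall_notMem]
      intro p hp
      rw [Finset.mem_filter, Finset.HasAntidiagonal.mem_antidiagonal] at hp
      apply h
      exact ⟨p.1, by omega⟩
    rw [this, Finset.sum_empty]

/-- expansion of `∑ (2 x i + δ i) (2 y j + δ j)` -/
lemma antidiag_expand (x y : ℕ → ℕ) {n : ℕ} (hn : n ≠ 0) :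
    ∑ p ∈ Finset.HasAntidiagonal.antidiagonal n, (2 * x p.1 + if p.1 = 0 then 1 else 0) *
      (2 * y p.2 + if p.2 = 0 then 1 else 0) =
    4 * ∑ p ∈ Finset.HasAntidiagonal.antidiagonal n, x p.1 * y p.2 + 2 * x n + 2 * y n := by
  have e : ∀ p ∈ Finset.HasAntidiagonal.antidiagonal n,
      (2 * x p.1 + if p.1 = 0 then 1 else 0) * (2 * y p.2 + if p.2 = 0 then 1 else 0) =
      4 * (x p.1 * y p.2) + (if p = (n, 0) then 2 * x n else 0) +
        (if p = (0, n) then 2 * y n else 0) := by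
    intro p hp
    rw [Finset.HasAntidiagonal.mem_antidiagonal] at hp
    by_cases h1 : p.1 = 0
    · have h2 : p.2 = n := by omega
      have hp1 : p ≠ (n, 0) := by
        intro h; rw [h] at h1; exact hn h1
      have hp2 : p = (0, n) := Prod.ext h1 h2
      have h3 : ¬ p.2 = 0 := by omega
      rw [if_pos h1, if_neg h3, if_neg hp1, if_pos hp2, h2]; ring
    · by_cases h2 : p.2 = 0
      · have h3 : p.1 = n := by omega
        have hp1 : p = (n, 0) := Prod.ext h3 h2
        have hp2 : p ≠ (0, n) := by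
          intro h; rw [h] at h1; exact h1 rfl
        rw [if_neg h1, if_pos h2, if_pos hp1, if_neg hp2, h3]; ring
      · have hp1 : p ≠ (n, 0) := by intro h; rw [h] at h2; exact h2 rfl
        have hp2 : p ≠ (0, n) := by intro h; rw [h] at h1; exact h1 rfl
        rw [if_neg h1, if_neg h2, if_neg hp1, if_neg hp2]; ring
  rw [Finset.sum_congr rfl e, Finset.sum_add_distrib, Finset.sum_add_distrib, ← Finset.mul_sum,
    Finset.sum_ite_eq', Finset.sum_ite_eq', if_pos (by rw [Finset.HasAntidiagonal.mem_antidiagonal]; simp),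
    if_pos (by rw [Finset.HasAntidiagonal.mem_antidiagonal]; simp)]

lemma tt2 (n : ℕ) : (if 2 ∣ n then tt (n / 2) else 0) = 2 * s2 n + if n = 0 then 1 else 0 := by
  rw [s2]
  by_cases h : 2 ∣ n
  · rw [if_pos h, if_pos h, tt]
    congr 1
    have : n / 2 = 0 ↔ n = 0 := by omega
    simp only [this]
  · have : n ≠ 0 := fun h0 => h (h0 ▸ dvd_zero 2)
    rw [if_neg h, if_neg h, if_neg this]

/-- the numbers of representations by `x² + y²` and `x² + 2y²` -/
theorem rep_facts {n : ℕ} (hn : n ≠ 0) :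
    4 ∣ ((qa 1 one_pos).fib n).card ∧ 2 ∣ ((qa 2 two_pos).fib n).card ∧
      2 * ((qa 2 two_pos).fib n).card ≡ ((qa 1 one_pos).fib n).card [MOD 8] := by
  have h1 : ((qa 1 one_pos).fib n).card =
      4 * ∑ p ∈ Finset.HasAntidiagonal.antidiagonal n, s1 p.1 * s1 p.2 + 2 * s1 n + 2 * s1 n := by
    rw [card_fib, ← antidiag_expand s1 s1 hn]
    refine Finset.sum_congr rfl fun p _ => ?_
    rw [if_pos (one_dvd _), Nat.div_one]; rfl
  have h2 : ((qa 2 two_pos).fib n).card =
      4 * ∑ p ∈ Finset.HasAntidiagonal.antidiagonal n, s1 p.1 * s2 p.2 + 2 * s1 n + 2 * s2 n := by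
    rw [card_fib, ← antidiag_expand s1 s2 hn]
    refine Finset.sum_congr rfl fun p _ => ?_
    rw [tt2]; rfl
  have h3 : (∑ p ∈ Finset.HasAntidiagonal.antidiagonal n, s1 p.1 * s1 p.2) ≡ s2 n [MOD 2] := by
    rw [← ZMod.natCast_eq_natCast_iff]
    push_cast
    have := antidiag_sq (fun m => (s1 m : ZMod 2)) n
    rw [this, s2]
    split_ifs <;> simp
  set A := ∑ p ∈ Finset.HasAntidiagonal.antidiagonal n, s1 p.1 * s1 p.2
  set B := ∑ p ∈ Finset.HasAntidiagonal.antidiagonal n, s1 p.1 * s2 p.2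
  have h4 : A % 2 = s2 n % 2 := h3
  rw [h1, h2]
  refine ⟨by omega, by omega, ?_⟩
  change (2 * (4 * B + 2 * s1 n + 2 * s2 n)) % 8 = (4 * A + 2 * s1 n + 2 * s1 n) % 8
  omega

lemma fib_zero {a : ℕ} (ha : 0 < a) : ((qa a ha).fib 0).card = 1 := by
  rw [card_fib]
  have h : a ≠ 0 := ha.ne'
  simp [tt, s1, h, ha]

end

end Vale.Agent.P022.H390E
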