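import Vale.Agent.P022.H390E.Bd

/-!
# P022: slashes of `f(2z)`; the auxiliary forms `g_e` of level `Γ₀(2^(e+1))`
-/

namespace Vale.Agent.P022.H390E

open Vale.Agent.P022.H390
open UpperHalfPlane hiding I
open ModularForm CongruenceSubgroup Matrix.SpecialLinearGroup
open scoped MatrixGroups ModularForm Manifold Real

noncomputable section

variable {f g : ℍ → ℂ} {C C' : ℝ} {k : ℤ}

/-- all slashes are 2-adically bounded, uniformly -/
def AB (k : ℤ) (f : ℍ → ℂ) : Prop := ∃ C, ∀ γ : SL(2, ℤ), Bd C (f ∣[k] γ)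

lemma AB.mul {k k' : ℤ} (h : AB k f) (h' : AB k' g) : AB (k + k') (f * g) := by
  obtain ⟨C, hC⟩ := h
  obtain ⟨C', hC'⟩ := h'
  exact ⟨C * C', fun γ => by rw [mul_slash_SL2]; exact (hC γ).mul (hC' γ)⟩

lemma AB.slash (h : AB k f) (γ : SL(2, ℤ)) : AB k (f ∣[k] γ) := by
  obtain ⟨C, hC⟩ := h
  exact ⟨C, fun δ => by rw [← SlashAction.slash_mul]; exact hC _⟩

lemma AB.smul (a : ℂ) (h : AB k f) : AB k (a • f) := by
  obtain ⟨C, hC⟩ := h
  exact ⟨‖iota a‖ * C, fun δ => by rw [SL_smul_slash]; exact (hC _).smul a⟩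

lemma AB.add (h : AB k f) (h' : AB k g) : AB k (f + g) := by
  obtain ⟨C, hC⟩ := h
  obtain ⟨C', hC'⟩ := h'
  exact ⟨max C C', fun γ => by
    rw [SlashAction.add_slash]
    exact ((hC γ).mono (le_max_left _ _)).add ((hC' γ).mono (le_max_right _ _))⟩

lemma AB.sum {ι : Type*} (s : Finset ι) (F : ι → ℍ → ℂ) (h : ∀ i ∈ s, AB k (F i)) :
    AB k (∑ i ∈ s, F i) := by
  classical
  induction s using Finset.induction_on with
  | empty =>
    rw [Finset.sum_empty]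
    exact ⟨0, fun γ => by rw [SlashAction.zero_slash]; exact Bd.zero le_rfl⟩
  | insert i s hi ih =>
    rw [Finset.sum_insert hi]
    exact (h i (Finset.mem_insert_self _ _)).add
      (ih fun j hj => h j (Finset.mem_insert_of_mem hj))

lemma AB.one : AB 0 (1 : ℍ → ℂ) := ⟨1, fun γ => by
  have : (1 : ℍ → ℂ) ∣[(0 : ℤ)] γ = 1 := is_invariant_one γ
  rw [this]; exact Bd.one⟩

/-- powers -/
lemma pow_slash (γ : SL(2, ℤ)) (m : ℕ) : (f ^ m) ∣[k * m] γ = (f ∣[k] γ) ^ m := by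
  induction m with
  | zero =>
    simp only [pow_zero, Nat.cast_zero, mul_zero]
    exact is_invariant_one γ
  | succ m ih =>
    have h2 : k * ((m + 1 : ℕ) : ℤ) = k * m + k := by push_cast; ring
    rw [h2, pow_succ, pow_succ, mul_slash_SL2, ih]

lemma mul_pow_slash {k' : ℤ} (γ : SL(2, ℤ)) (m : ℕ) :
    (f * g ^ m) ∣[k + k' * m] γ = (f ∣[k] γ) * (g ∣[k'] γ) ^ m := by
  rw [mul_slash_SL2, pow_slash]

lemma AB.pow (h : AB k f) (m : ℕ) : AB (k * m) (f ^ m) := by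
  obtain ⟨C, hC⟩ := h
  exact ⟨C ^ m, fun γ => by rw [pow_slash]; exact (hC γ).pow m⟩

/-- `!![a, 2b; c/2, d]` -/
def up (γ : SL(2, ℤ)) (h : 2 ∣ γ 1 0) : SL(2, ℤ) :=
  slMk (γ 0 0) (2 * γ 0 1) (γ 1 0 / 2) (γ 1 1) (by
    have := det_eq γ
    obtain ⟨c, hc⟩ := h
    rw [hc] at this ⊢
    rw [Int.mul_ediv_cancel_left _ two_ne_zero]
    linarith)

lemma dbl_slash_up (γ : SL(2, ℤ)) (h : 2 ∣ γ 1 0) : (dbl f) ∣[k] γ = dbl (f ∣[k] up γ h) := by
  funext z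
  have hcC : (γ 1 0 : ℂ) = 2 * ((up γ h) 1 0 : ℤ) := by
    have : γ 1 0 = 2 * (up γ h) 1 0 := (Int.mul_ediv_cancel' h).symm
    exact_mod_cast this
  rw [SL_slash_apply, dbl, dbl, SL_slash_apply, ModularGroup.denom_apply,
    ModularGroup.denom_apply]
  have e1 : (up γ h) 1 1 = γ 1 1 := rfl
  have e0 : (up γ h) 0 0 = γ 0 0 := rfl
  have e01 : (up γ h) 0 1 = 2 * γ 0 1 := rfl
  have e2 : mat 2 0 0 1 • γ • z = (up γ h) • mat 2 0 0 1 • z := by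
    ext
    rw [coe_dbl, QD.coe_smul_eq, QD.coe_smul_eq, coe_dbl, e1, e0, e01, hcC]
    push_cast
    rw [mul_div_assoc']
    congr 1 <;> ring
  rw [e2, e1, coe_dbl, hcC]
  congr 2
  ring

/-- the decomposition of matrices with odd lower left entry -/
lemma exists_decomp (γ : SL(2, ℤ)) (h : ¬ 2 ∣ γ 1 0) :
    ∃ γ0 : SL(2, ℤ), 2 ∣ γ0 1 0 ∧ (γ = γ0 * mS ∨ γ = γ0 * mS * mT) := by
  by_cases hd : 2 ∣ γ 1 1
  · refine ⟨γ * mS⁻¹, ?_, Or.inl (by rw [inv_mul_cancel_right])⟩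
    have : (γ * mS⁻¹) 1 0 = -γ 1 1 := by
      rw [Matrix.SpecialLinearGroup.coe_mul, Matrix.mul_apply, Fin.sum_univ_two]
      simp [Matrix.adjugate_fin_two]
    rw [this]; exact (dvd_neg).2 hd
  · refine ⟨γ * mT⁻¹ * mS⁻¹, ?_, Or.inr (by rw [inv_mul_cancel_right, inv_mul_cancel_right])⟩
    have : (γ * mT⁻¹ * mS⁻¹) 1 0 = γ 1 0 - γ 1 1 := by
      have e : (mT⁻¹ * mS⁻¹) 0 0 = 1 ∧ (mT⁻¹ * mS⁻¹) 1 0 = -1 := by
        constructor <;> decide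
      rw [mul_assoc, Matrix.SpecialLinearGroup.coe_mul, Matrix.mul_apply, Fin.sum_univ_two]
      change γ 1 0 * (mT⁻¹ * mS⁻¹) 0 0 + γ 1 1 * (mT⁻¹ * mS⁻¹) 1 0 = _
      rw [e.1, e.2]; ring
    rw [this]; omega

lemma norm_two_zpow : ‖iota ((2 : ℂ) ^ (-k))‖ = 2 ^ k := by
  rw [map_zpow₀, map_ofNat, norm_zpow, norm_two, one_div, inv_zpow, zpow_neg, inv_inv]

lemma AB.dbl (h : AB k f) : AB k (dbl f) := by
  obtain ⟨C, hC⟩ := h
  have hC0 : 0 ≤ C := (hC 1).nonneg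
  refine ⟨max C (2 ^ k * C), fun γ => ?_⟩
  by_cases hγ : 2 ∣ γ 1 0
  · rw [dbl_slash_up γ hγ]
    exact ((hC _).dbl).mono (le_max_left _ _)
  · obtain ⟨γ0, h0, h1⟩ := exists_decomp γ hγ
    have key : Bd (2 ^ k * C) ((H390.dbl f) ∣[k] (γ0 * mS)) := by
      rw [SlashAction.slash_mul, dbl_slash_up γ0 h0, dbl_slash_S, ← SlashAction.slash_mul]
      have := (hC (up γ0 h0 * mS)).hlf.smul ((2 : ℂ) ^ (-k))
      rwa [norm_two_zpow] at this
    rcases h1 with rfl | rfl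
    · exact key.mono (le_max_right _ _)
    · rw [SlashAction.slash_mul]
      exact (key.slash_T k).mono (le_max_right _ _)

/-- invariance under `Γ₀(M)` -/
def G0 (M : ℕ) (k : ℤ) (f : ℍ → ℂ) : Prop := ∀ γ : SL(2, ℤ), (M : ℤ) ∣ γ 1 0 → f ∣[k] γ = f

lemma G0.dbl {r : ℕ} (h : G0 (2 ^ r) k f) : G0 (2 ^ (r + 1)) k (dbl f) := by
  intro γ hγ
  have h2 : 2 ∣ γ 1 0 := by
    refine dvd_trans ?_ hγ
    exact_mod_cast (dvd_pow_self 2 (Nat.succ_ne_zero r))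
  rw [dbl_slash_up γ h2, h]
  change ((2 ^ r : ℕ) : ℤ) ∣ γ 1 0 / 2
  obtain ⟨c, hc⟩ := hγ
  refine ⟨c, ?_⟩
  rw [hc]
  push_cast
  rw [pow_succ, mul_assoc, mul_comm, mul_assoc, Int.mul_ediv_cancel_left _ two_ne_zero, mul_comm]

/-- the auxiliary forms -/
def gE : ℕ → ℍ → ℂ
  | 0 => g2
  | e + 1 => dbl (gE e)

lemma e4_slash (γ : SL(2, ℤ)) : e4 ∣[(4 : ℤ)] γ = e4 := slash_level_one isMF_e4 γ

lemma bd_e4 : Bd (1 / 16) (e4 - 1) := by
  have e : e4 - 1 = e4 + (-1 : ℂ) • (1 : ℍ → ℂ) := by funext z; simp [sub_eq_add_neg]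
  apply Bd.of_Bq
  refine Bq.of_pb ?_ ?_
  · rw [e]; exact e4_good.add (Good.one.smul _)
  · rw [e, qs_add one_pos e4_good (Good.one.smul _), qs_smul one_pos _ Good.one, qs_one, map_neg,
      map_one]
    have := qs_e4
    simpa [sub_eq_add_neg] using this

lemma bd_e4' : Bd 1 e4 := by
  have := (bd_e4.mono (show (1 / 16 : ℝ) ≤ 1 by norm_num)).add Bd.one
  have e : e4 - 1 + 1 = e4 := by ring
  rwa [e] at this

lemma AB_e4 : AB 4 e4 := ⟨1, fun γ => by rw [e4_slash]; exact bd_e4'⟩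

lemma AB_g2 : AB 4 g2 := (((AB_e4.dbl).smul _).add (AB_e4.smul _)).smul _

lemma AB_gE (e : ℕ) : AB 4 (gE e) := by
  induction e with
  | zero => exact AB_g2
  | succ e ih => exact ih.dbl

lemma G0_g2 : G0 (2 ^ 1) 4 g2 := by
  intro γ hγ
  have hγ' : 2 ∣ γ 1 0 := by simpa using hγ
  rw [g2, SL_smul_slash, SlashAction.add_slash, SL_smul_slash, SL_smul_slash,
    dbl_slash_up γ hγ', e4_slash, e4_slash]

lemma G0_gE (e : ℕ) : G0 (2 ^ (e + 1)) 4 (gE e) := by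
  induction e with
  | zero => exact G0_g2
  | succ e ih => exact ih.dbl

lemma norm_iota_fifteen : ‖iota (1 / 15 : ℂ)‖ ≤ 1 := norm_iota_15.le

lemma norm_iota_nat (n : ℕ) : ‖iota (n : ℂ)‖ ≤ 1 := by
  rw [map_natCast]; exact norm_nat_le_one n

lemma bd_g2 : Bd (1 / 2) (g2 - 1) := by
  have e : g2 - 1 = (1 / 15 : ℂ) • ((16 : ℂ) • dbl (e4 - 1) - (e4 - 1)) := by
    funext z
    simp only [g2, dbl, Pi.sub_apply, Pi.smul_apply, Pi.add_apply, smul_eq_mul, Pi.one_apply]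
    ring
  rw [e]
  apply Bd.smul_le norm_iota_fifteen
  have h16 : ‖iota (16 : ℂ)‖ ≤ 1 := by exact_mod_cast norm_iota_nat 16
  exact ((bd_e4.dbl.smul_le h16).sub bd_e4).mono (by norm_num)

lemma bd_gE (e : ℕ) : Bd (1 / 2) (gE e - 1) := by
  induction e with
  | zero => exact bd_g2
  | succ e ih => exact ih.dbl

lemma bd_g2_S : Bd (1 / 2) (g2 ∣[(4 : ℤ)] mS) := by
  have e : g2 ∣[(4 : ℤ)] mS = (1 / 15 : ℂ) • (hlf (e4 - 1) - (e4 - 1)) := by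
    rw [g2_S]
    funext z
    simp only [hlf, Pi.sub_apply, Pi.smul_apply, Pi.add_apply, smul_eq_mul, Pi.one_apply]
    ring
  rw [e]
  exact (Bd.smul_le norm_iota_fifteen (bd_e4.hlf.sub bd_e4)).mono (by norm_num)

lemma bd_g2_odd (γ : SL(2, ℤ)) (h : ¬ 2 ∣ γ 1 0) : Bd (1 / 2) (g2 ∣[(4 : ℤ)] γ) := by
  obtain ⟨γ0, h0, h1⟩ := exists_decomp γ h
  have key : Bd (1 / 2) (g2 ∣[(4 : ℤ)] (γ0 * mS)) := by
    rw [SlashAction.slash_mul, G0_g2 γ0 (by simpa using h0)]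
    exact bd_g2_S
  rcases h1 with rfl | rfl
  · exact key
  · rw [SlashAction.slash_mul]; exact key.slash_T 4

/-- `g_e` is small at the matrices exactly divisible by `2^e` -/
lemma bd_gE_odd (e : ℕ) (γ : SL(2, ℤ)) (h : (2 ^ e : ℤ) ∣ γ 1 0) (h' : ¬ (2 ^ (e + 1) : ℤ) ∣ γ 1 0) :
    Bd (1 / 2) (gE e ∣[(4 : ℤ)] γ) := by
  induction e generalizing γ with
  | zero => exact bd_g2_odd γ (by simpa using h')
  | succ e ih =>
    obtain ⟨c, hc⟩ := h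
    have h2 : 2 ∣ γ 1 0 := by
      rw [hc, pow_succ]; exact ⟨2 ^ e * c, by ring⟩
    have h10 : (up γ h2) 1 0 = 2 ^ e * c := by
      change γ 1 0 / 2 = _
      rw [hc, pow_succ]
      have : (2 : ℤ) ^ e * 2 * c = 2 * (2 ^ e * c) := by ring
      rw [this, Int.mul_ediv_cancel_left _ two_ne_zero]
    change Bd (1 / 2) ((dbl (gE e)) ∣[(4 : ℤ)] γ)
    rw [dbl_slash_up γ h2]
    apply Bd.dbl
    apply ih
    · rw [h10]; exact dvd_mul_right _ _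
    · rw [h10]
      intro hd
      apply h'
      rw [hc, pow_succ, pow_succ]
      rw [pow_succ] at hd
      have h3 : (2 : ℤ) ∣ c := by
        have hne : (2 : ℤ) ^ e ≠ 0 := by positivity
        exact (mul_dvd_mul_iff_left hne).1 hd
      obtain ⟨c', rfl⟩ := h3
      exact ⟨c', by ring⟩

end

end Vale.Agent.P022.H390E
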