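import Vale.Agent.P022.H390.Def

/-!
# P022: representations attached to Hecke characters of imaginary quadratic fields, definition
-/

namespace Vale.Agent.P022.H390E

open Vale.Agent.P022.H390
open scoped NumberField

variable {E : IntermediateField ℚ_[2] (PadicAlgCl 2)}

/-- `r` is attached to the Hecke character `ψ` of the imaginary quadratic field `K` (that is, `r`
is the representation induced from the character of `G_K` corresponding to `ψ`), with exact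
ramification outside `2`: the odd primes at which `r` ramifies are the odd primes dividing
`disc K · N𝔣`; and for the other odd primes `ℓ` one has
`tr r(Frob_ℓ) = ∑_{N𝔭 = ℓ} ψ(𝔭)`, and `det r(Frob_ℓ) = ψ((ℓ))` if `ℓ` splits in `K` and
`-ψ((ℓ))` if `ℓ` is inert in `K`. (Nothing is asked at the prime `2`.) -/
structure IsAttachedTo {K : Type*} [Field K] [NumberField K] {𝔣 : Ideal (𝓞 K)}
    (r : Rep E) (ψ : HeckeChar K 𝔣 (OE E)) : Prop where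
  unram : ∀ ℓ : ℕ, ℓ.Prime → ¬ (ℓ : ℤ) ∣ 2 * (NumberField.discr K * Ideal.absNorm 𝔣) →
    UnramifiedAt r ℓ
  ram : ∀ ℓ : ℕ, ℓ.Prime → ℓ ≠ 2 → (ℓ : ℤ) ∣ NumberField.discr K * Ideal.absNorm 𝔣 →
    ¬ UnramifiedAt r ℓ
  trace : ∀ ℓ : ℕ, ℓ.Prime → ¬ (ℓ : ℤ) ∣ 2 * (NumberField.discr K * Ideal.absNorm 𝔣) →
    ∀ σ : GQ, IsFrob ℓ σ →
      r.tr σ = ∑ᶠ 𝔭 ∈ {𝔭 : Ideal (𝓞 K) | Ideal.absNorm 𝔭 = ℓ}, (ψ.toFun 𝔭).val
  det_split : ∀ ℓ : ℕ, ℓ.Prime → ¬ (ℓ : ℤ) ∣ 2 * (NumberField.discr K * Ideal.absNorm 𝔣) →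
    (∃ 𝔭 : Ideal (𝓞 K), Ideal.absNorm 𝔭 = ℓ) →
    ∀ σ : GQ, IsFrob ℓ σ → r.det σ = (ψ.toFun (Ideal.span {(ℓ : 𝓞 K)})).val
  det_inert : ∀ ℓ : ℕ, ℓ.Prime → ¬ (ℓ : ℤ) ∣ 2 * (NumberField.discr K * Ideal.absNorm 𝔣) →
    (¬ ∃ 𝔭 : Ideal (𝓞 K), Ideal.absNorm 𝔭 = ℓ) →
    ∀ σ : GQ, IsFrob ℓ σ → r.det σ = -(ψ.toFun (Ideal.span {(ℓ : 𝓞 K)})).val

end Vale.Agent.P022.H390E
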