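import Vale.Agent.P022.H390E.NFE
import Vale.Agent.P022.H390E.DefE
import Vale.Agent.P022.H390.Final

/-!
# P022: representations attached to Hecke characters of imaginary quadratic fields
-/

namespace Vale.Agent.P022.H390E

open Vale.Agent.P022.H390
open NumberField Module
open scoped NumberTheorySymbols

noncomputable section

variable {K : Type*} [Field K] [NumberField K] {𝔣 : Ideal (𝓞 K)}
variable {E : IntermediateField ℚ_[2] (PadicAlgCl 2)}

variable (ψ : HeckeChar K 𝔣 (OE E))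

/-- **Representations attached to 2-adic Hecke characters of imaginary quadratic fields occur at
an odd level whose prime divisors are ramified primes.** -/
theorem mainE [FiniteDimensional ℚ_[2] E] (h2 : finrank ℚ K = 2) (hd : discr K < 0)
    (hf : 𝔣 ≠ ⊥) (hf2 : IsCoprime 𝔣 (Ideal.span {2}))
    (r : Rep E) (hr : IsAttachedTo r ψ) :
    ∃ (N : ℕ) (_ : NeZero N), Odd N ∧ (∀ q : ℕ, q.Prime → q ∣ N → ¬ UnramifiedAt r q) ∧
      OccursAt N r := by
  have hfn : Ideal.absNorm 𝔣 ≠ 0 := by rwa [ne_eq, Ideal.absNorm_eq_zero_iff]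
  -- `N𝔣` is odd
  have hf2' : Nat.Coprime (Ideal.absNorm 𝔣) 2 := by
    rw [Nat.coprime_comm, Nat.Prime.coprime_iff_not_dvd Nat.prime_two]
    intro hdvd
    obtain ⟨P, hP, hP1, hP2⟩ := exists_above Nat.prime_two hdvd
    rw [Ideal.isCoprime_iff_sup_eq] at hf2
    apply hP.ne_top
    rw [eq_top_iff, ← hf2]
    refine sup_le (Ideal.le_of_dvd hP1) ?_
    have := Ideal.le_of_dvd hP2
    exact_mod_cast this
  have hd0 : (discr K).natAbs ≠ 0 := by
    rw [ne_eq, Int.natAbs_eq_zero]; exact hd.ne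
  obtain ⟨e, m, hm, hD⟩ := Nat.exists_eq_two_pow_mul_odd hd0
  set N : ℕ := (m * Ideal.absNorm 𝔣) ^ 2 with hN
  have hN0 : N ≠ 0 := pow_ne_zero _ (mul_ne_zero hm.pos.ne' hfn)
  haveI : NeZero N := ⟨hN0⟩
  have hNodd : Odd N := by
    apply Odd.pow
    exact hm.mul (Nat.coprime_two_right.1 hf2')
  have hmd : m ∣ (discr K).natAbs := by rw [hD]; exact dvd_mul_left _ _
  -- primes dividing `N`
  have hprime : ∀ q : ℕ, q.Prime → q ∣ N → (q : ℤ) ∣ discr K * Ideal.absNorm 𝔣 := by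
    intro q hq h
    rw [hN, hq.prime.dvd_pow_iff_dvd two_ne_zero] at h
    rw [Int.natCast_dvd, Int.natAbs_mul, Int.natAbs_natCast]
    exact h.trans (Nat.mul_dvd_mul_right hmd _)
  have hprime2 : ∀ q : ℕ, q.Prime → ¬ q ∣ 2 * N → ¬ (q : ℤ) ∣ 2 * (discr K * Ideal.absNorm 𝔣) := by
    intro q hq h h'
    have hqp := Nat.prime_iff_prime_int.1 hq
    have h2' : q ∣ 2 → False := fun hq2 => h (Dvd.dvd.mul_right hq2 _)
    rcases hqp.dvd_or_dvd h' with h1 | h1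
    · exact h2' (by exact_mod_cast h1)
    · rw [Int.natCast_dvd, Int.natAbs_mul, Int.natAbs_natCast, hD] at h1
      rcases hq.dvd_mul.1 h1 with h3 | h3
      · rcases hq.dvd_mul.1 h3 with h4 | h4
        · exact h2' (hq.dvd_of_dvd_pow h4)
        · exact h (Dvd.dvd.mul_left ((Dvd.dvd.mul_right h4 _).trans (dvd_pow_self _ two_ne_zero)) _)
      · exact h (Dvd.dvd.mul_left ((Dvd.dvd.mul_left h3 _).trans (dvd_pow_self _ two_ne_zero)) _)
  have hprime3 : ∀ q : ℕ, q.Prime → ¬ q ∣ 2 * N → ¬ (q : ℤ) ∣ discr K := by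
    intro q hq h h'
    exact hprime2 q hq h (Dvd.dvd.mul_left (Dvd.dvd.mul_right h' _) _)
  have hHK : HK K (Ideal.absNorm 𝔣) N :=
    ⟨Nat.coprime_two_right.2 hNodd, e, m, hD, hm, dvd_refl _⟩
  have hV : PhiE ψ.toL ∈ V N := PhiE_mem ψ.toL h2 hd hf hf2' hHK
  have hE := eigenE ψ.toL h2 hd (N := N) hprime3
  obtain ⟨φ, hφc, hφ⟩ := exists_hom (E := E) hE hV (fun ℓ _ => ψ.a_mem ℓ)
    (fun ℓ _ => OEs.mul (OEs.int _) (ψ.toL_mem _))
  refine ⟨N, inferInstance, hNodd, fun q hq hqN => hr.ram q hq ?_ (hprime q hq hqN),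
    fun ℓ hℓ hℓN => hr.unram ℓ hℓ (hprime2 ℓ hℓ hℓN), φ, hφc, ?_⟩
  · rintro rfl
    exact (Nat.not_even_iff_odd.2 hNodd) (even_iff_two_dvd.2 hqN)
  intro ℓ h σ hσ
  have hℓ' := hprime2 ℓ h.1 h.2
  have hℓ2 : ℓ ≠ 2 := by
    rintro rfl
    exact h.2 (dvd_mul_right _ _)
  obtain ⟨j1, j2⟩ := jacobi_splitE h2 hd h.1 hℓ2 (hprime3 ℓ h.1 h.2)
  constructor
  · apply Subtype.ext
    rw [(hφ ℓ h).1, hr.trace ℓ h.1 hℓ' σ hσ, ψ.finsum_eq]
  · apply Subtype.ext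
    rw [(hφ ℓ h).2]
    by_cases hex : ∃ 𝔭 : Ideal (𝓞 K), Ideal.absNorm 𝔭 = ℓ
    · rw [hr.det_split ℓ h.1 hℓ' hex σ hσ, j1 hex, Int.cast_one, one_mul]; rfl
    · rw [hr.det_inert ℓ h.1 hℓ' hex σ hσ, j2 hex]
      push_cast
      rw [neg_one_mul]; rfl

end

end Vale.Agent.P022.H390E
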