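import Vale.Agent.P022.H390E.ThB

/-!
# P022: theta series of even discriminant under `Γ₀(N)`
-/

namespace Vale.Agent.P022.H390E

open Vale.Agent.P022.H390
open UpperHalfPlane hiding I
open ModularForm CongruenceSubgroup Matrix.SpecialLinearGroup
open scoped MatrixGroups ModularForm Manifold Real Nat NumberTheorySymbols
open Complex (I exp)

noncomputable section

namespace QE

variable {q : QD} {M N : ℕ} [NeZero M] [NeZero N] {h : ℤ × ℤ → ℂ}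

/-- the function `v ↦ h(d v)` -/
def dl (h : ℤ × ℤ → ℂ) (d : ℤ) : ℤ × ℤ → ℂ := fun v => h (d * v.1, d * v.2)

lemma dl_per (hh : Per M h) (d : ℤ) : Per M (dl h d) := by
  intro v w
  have := hh (d * v.1, d * v.2) (d * w.1, d * w.2)
  simp only [dl]
  rw [← this]
  congr 2 <;> ring

lemma dl_congr (hh : Per M h) {d e : ℤ} (hde : (M : ℤ) ∣ d - e) : dl h d = dl h e := by
  funext v
  exact QD.Per.smul_congr hh hde v

lemma dl_dl (h : ℤ × ℤ → ℂ) (d e : ℤ) : dl (dl h d) e = dl h (d * e) := by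
  funext v
  simp only [dl, mul_assoc]

lemma dl_one (h : ℤ × ℤ → ℂ) : dl h 1 = h := by
  funext v; simp [dl]

lemma four_D_dvd (h4 : 4 ∣ q.D) (hN : (q.D * M) ^ 2 ∣ N) : 4 * q.D ∣ N := by
  refine dvd_trans ?_ hN
  have : (q.D * M) ^ 2 = (q.D * q.D) * M ^ 2 := by ring
  rw [this]
  exact Dvd.dvd.mul_right (Nat.mul_dvd_mul_right h4 _) _

lemma M_dvd' (hN : (q.D * M) ^ 2 ∣ N) : M ∣ N :=
  (Dvd.intro_left _ rfl : M ∣ q.D * M).trans ((dvd_pow_self _ two_ne_zero).trans hN)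

lemma D_sq_dvd (hN : (q.D * M) ^ 2 ∣ N) : q.D ^ 2 ∣ N := by
  refine dvd_trans ?_ hN
  rw [mul_pow]; exact dvd_mul_right _ _

lemma odd_of_coprime (h4 : 4 ∣ q.D) (hN : (q.D * M) ^ 2 ∣ N) {d : ℕ} (hd : Nat.Coprime d N) :
    Odd d := by
  have h2 : 2 ∣ N := (show 2 ∣ 4 by norm_num).trans
    ((dvd_mul_right 4 q.D).trans (four_D_dvd h4 hN))
  rw [← Nat.coprime_two_right]; exact hd.coprime_dvd_right h2

lemma exists_nat_congr (N : ℕ) [NeZero N] {α : ℤ} (hα : IsCoprime α (N : ℤ)) :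
    ∃ d : ℕ, Nat.Coprime d N ∧ (N : ℤ) ∣ α - d := by
  refine ⟨(α : ZMod N).val, ?_, ?_⟩
  · rw [← ZMod.isUnit_iff_coprime, ZMod.natCast_zmod_val]
    exact (ZMod.coe_int_isUnit_iff_isCoprime α N).2 hα.symm
  · rw [← ZMod.intCast_zmod_eq_zero_iff_dvd]
    push_cast
    rw [ZMod.natCast_zmod_val, sub_self]

lemma mul_modEq_one {a b : ℤ} {d d' N K : ℕ} (hK : K ∣ N) (ha : (N : ℤ) ∣ a - d)
    (hb : (N : ℤ) ∣ b - d') (hab : (N : ℤ) ∣ a * b - 1) : d * d' ≡ 1 [MOD K] := by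
  have hK' : (K : ℤ) ∣ N := by exact_mod_cast hK
  rw [← Int.natCast_modEq_iff, Int.modEq_iff_dvd]
  have e : (((1 : ℕ) : ℤ) - ((d * d' : ℕ) : ℤ)) = -(a * b - 1) + (a - d) * b + (b - d') * d := by
    push_cast; ring
  rw [e]
  exact dvd_add (dvd_add ((dvd_neg).2 (hK'.trans hab)) (Dvd.dvd.mul_right (hK'.trans ha) _))
    (Dvd.dvd.mul_right (hK'.trans hb) _)

lemma J_cast_ne {D d : ℕ} (h : Nat.Coprime d D) (hd : 0 < d) :
    (J(-(D : ℤ) | d) : ℂ) * (J(-(D : ℤ) | d) : ℂ) = 1 := by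
  exact_mod_cast J_sq h hd

/-- positive lower left entry -/
lemma tf_Gamma0_pos (hh : Per M h) (h4 : 4 ∣ q.D) (hN : (q.D * M) ^ 2 ∣ N) (a : ℕ) {γ : SL(2, ℤ)}
    (hγ : γ ∈ Gamma0 N) (hc : 0 < γ 1 0) {d : ℕ} (hd : Nat.Coprime d N)
    (h11 : (N : ℤ) ∣ γ 1 1 - d) :
    q.tf a h ∣[((a + 1 : ℕ) : ℤ)] γ = (J(-(q.D : ℤ) | d) : ℂ) • q.tf a (dl h d) := by
  obtain ⟨c, hc'⟩ := Int.eq_ofNat_of_zero_le hc.le
  haveI : NeZero c := ⟨by rintro rfl; rw [hc'] at hc; exact lt_irrefl _ hc⟩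
  have hNc : N ∣ c := by
    have := mem_Gamma0_iff.1 hγ
    rw [hc'] at this
    exact_mod_cast this
  have hdet := det_eq γ
  rw [hc'] at hdet
  have hα : IsCoprime (γ 0 0) (c : ℤ) := ⟨γ 1 1, -γ 0 1, by linear_combination hdet⟩
  obtain ⟨d', hd', hd'α⟩ := exists_nat_congr c hα
  have hNcZ : (N : ℤ) ∣ c := by exact_mod_cast hNc
  have hd'N : Nat.Coprime d' N := hd'.coprime_dvd_right hNc
  have hab : (N : ℤ) ∣ γ 1 1 * γ 0 0 - 1 := by
    refine hNcZ.trans ⟨γ 0 1, by linear_combination hdet⟩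
  have hJ : J(-(q.D : ℤ) | d') = J(-(q.D : ℤ) | d) := by
    symm
    apply J_inv (odd_of_coprime h4 hN hd) (odd_of_coprime h4 hN hd'N)
    exact mul_modEq_one (four_D_dvd h4 hN) h11 (hNcZ.trans hd'α) hab
  rw [QD.tf_slash hh a γ hc' (hN.trans hNc), kap_even h4 ((D_sq_dvd hN).trans hNc) hd' hd'α, hJ]
  congr 1
  have : (fun v : ℤ × ℤ => h (γ 1 1 * v.1, γ 1 1 * v.2)) = dl h (γ 1 1) := rfl
  rw [this, dl_congr hh (e := d)]
  exact dvd_trans (by exact_mod_cast M_dvd' hN) h11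

lemma tf_Gamma0_ne (hh : Per M h) (h4 : 4 ∣ q.D) (hN : (q.D * M) ^ 2 ∣ N) (a : ℕ) {γ : SL(2, ℤ)}
    (hγ : γ ∈ Gamma0 N) (hc : γ 1 0 ≠ 0) {d : ℕ} (hd : Nat.Coprime d N)
    (h11 : (N : ℤ) ∣ γ 1 1 - d) :
    q.tf a h ∣[((a + 1 : ℕ) : ℤ)] γ = (J(-(q.D : ℤ) | d) : ℂ) • q.tf a (dl h d) := by
  rcases lt_or_gt_of_ne hc with hc | hc
  · have h10 : (γ⁻¹) 1 0 = -(γ 1 0) := by
      simp [Matrix.adjugate_fin_two]
    have h11' : (γ⁻¹) 1 1 = γ 0 0 := by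
      simp [Matrix.adjugate_fin_two]
    have hdet := det_eq γ
    obtain ⟨c, hcN⟩ := mem_Gamma0_iff.1 hγ
    have hα : IsCoprime (γ 0 0) (N : ℤ) := ⟨γ 1 1, -γ 0 1 * c, by
      linear_combination hdet + γ 0 1 * hcN⟩
    obtain ⟨d', hd', hd'α⟩ := exists_nat_congr N hα
    have hab : (N : ℤ) ∣ γ 1 1 * γ 0 0 - 1 := ⟨γ 0 1 * c, by
      linear_combination hdet + γ 0 1 * hcN⟩
    have hJ : J(-(q.D : ℤ) | d') = J(-(q.D : ℤ) | d) := by
      symm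
      apply J_inv (odd_of_coprime h4 hN hd) (odd_of_coprime h4 hN hd')
      exact mul_modEq_one (four_D_dvd h4 hN) h11 hd'α hab
    have key := tf_Gamma0_pos (q := q) (dl_per hh d) h4 hN a (γ := γ⁻¹) (inv_mem hγ)
      (by rw [h10]; linarith) hd' (by rw [h11']; exact hd'α)
    rw [dl_dl] at key
    have hone : dl h ((d : ℤ) * (d' : ℤ)) = h := by
      have h1 : (M : ℤ) ∣ (d : ℤ) * d' - 1 := by
        have := mul_modEq_one (M_dvd' hN) h11 hd'α hab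
        rw [← Int.natCast_modEq_iff, Int.modEq_iff_dvd] at this
        rw [← dvd_neg]
        push_cast at this
        have e : -((d : ℤ) * d' - 1) = 1 - d * d' := by ring
        rw [e]; exact this
      rw [dl_congr hh h1, dl_one]
    rw [hone, hJ] at key
    have h2 := congrArg (fun F : ℍ → ℂ => F ∣[((a + 1 : ℕ) : ℤ)] γ) key
    rw [← SlashAction.slash_mul, inv_mul_cancel, SlashAction.slash_one, SL_smul_slash] at h2
    rw [h2, smul_smul]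
    have hdD : Nat.Coprime d q.D :=
      hd.coprime_dvd_right ((dvd_mul_left q.D 4).trans (four_D_dvd h4 hN))
    rw [J_cast_ne hdD (odd_of_coprime h4 hN hd).pos, one_smul]
  · exact tf_Gamma0_pos hh h4 hN a hγ hc hd h11

/-- **theta series under `Γ₀(N)`** -/
theorem tf_Gamma0 (hh : Per M h) (h4 : 4 ∣ q.D) (hN : (q.D * M) ^ 2 ∣ N) (a : ℕ) {γ : SL(2, ℤ)}
    (hγ : γ ∈ Gamma0 N) {d : ℕ} (hd : Nat.Coprime d N) (h11 : (N : ℤ) ∣ γ 1 1 - d) :
    q.tf a h ∣[((a + 1 : ℕ) : ℤ)] γ = (J(-(q.D : ℤ) | d) : ℂ) • q.tf a (dl h d) := by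
  by_cases hc : γ 1 0 = 0
  · set u : SL(2, ℤ) := slMk 1 0 N 1 (by ring) with hu
    have hu0 : u ∈ Gamma0 N := mem_Gamma0_iff.2 (dvd_refl _)
    have e10 : (γ * u) 1 0 = γ 1 1 * N := by
      have : (γ * u) 1 0 = γ 1 0 * 1 + γ 1 1 * N := by
        rw [Matrix.SpecialLinearGroup.coe_mul, Matrix.mul_apply, Fin.sum_univ_two]; rfl
      rw [this, hc]; ring
    have e11 : (γ * u) 1 1 = γ 1 1 := by
      have : (γ * u) 1 1 = γ 1 0 * 0 + γ 1 1 * 1 := by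
        rw [Matrix.SpecialLinearGroup.coe_mul, Matrix.mul_apply, Fin.sum_univ_two]; rfl
      rw [this]; ring
    have hdet := det_eq γ
    have h11' : γ 1 1 ≠ 0 := by
      intro h0; rw [h0, hc] at hdet; simp at hdet
    have hNZ : (N : ℤ) ≠ 0 := by exact_mod_cast (NeZero.ne N)
    have k1 := tf_Gamma0_ne (q := q) hh h4 hN a (γ := γ * u) (mul_mem hγ hu0)
      (by rw [e10]; exact mul_ne_zero h11' hNZ) hd (by rw [e11]; exact h11)
    have k2 : ∀ h' : ℤ × ℤ → ℂ, Per M h' → q.tf a h' ∣[((a + 1 : ℕ) : ℤ)] u = q.tf a h' := by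
      intro h' hh'
      have := tf_Gamma0_ne (q := q) hh' h4 hN a (γ := u) hu0 (by change (N : ℤ) ≠ 0; exact hNZ)
        (d := 1) (Nat.coprime_one_left _) (by change (N : ℤ) ∣ 1 - ((1 : ℕ) : ℤ); simp)
      rw [this, jacobiSym.one_right, Nat.cast_one, dl_one]; simp
    rw [SlashAction.slash_mul] at k1
    have k3 := congrArg (fun F : ℍ → ℂ => F ∣[((a + 1 : ℕ) : ℤ)] u⁻¹) k1
    rw [← SlashAction.slash_mul, mul_inv_cancel, SlashAction.slash_one, SL_smul_slash] at k3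
    rw [k3]
    congr 1
    have k4 := congrArg (fun F : ℍ → ℂ => F ∣[((a + 1 : ℕ) : ℤ)] u⁻¹) (k2 _ (dl_per hh d))
    rw [← SlashAction.slash_mul, mul_inv_cancel, SlashAction.slash_one] at k4
    exact k4.symm
  · exact tf_Gamma0_ne hh h4 hN a hγ hc hd h11

theorem AB_tf (hh : Per M h) (h4 : 4 ∣ q.D) (a : ℕ) : AB ((a + 1 : ℕ) : ℤ) (q.tf a h) := by
  haveI : NeZero ((q.D * M) ^ 2) := ⟨pow_ne_zero _ (mul_ne_zero q.D_pos.ne' (NeZero.ne M))⟩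
  refine AB_of_finite (Γ := Gamma1 ((q.D * M) ^ 2)) (fun γ hγ => ?_) (fun γ => bd_tf_slash hh a γ)
  have h1 := tf_Gamma0 (q := q) hh h4 (dvd_refl _) a (Gamma1_in_Gamma0 _ hγ) (d := 1)
    (Nat.coprime_one_left _) (by
      rw [Gamma1_mem] at hγ
      rw [← ZMod.intCast_zmod_eq_zero_iff_dvd]
      push_cast
      rw [hγ.2.1]; ring)
  rw [h1, jacobiSym.one_right, Nat.cast_one, dl_one]; simp

end QE

end

end Vale.Agent.P022.H390E
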