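import Vale.Agent.P022.H390E.ContE
import Vale.Agent.P022.H390.NF6

/-!
# P022: the theta family of a 2-adic character of an imaginary quadratic field, any discriminant
-/

namespace Vale.Agent.P022.H390E

open Vale.Agent.P022.H390
open NumberField Module
open scoped NumberTheorySymbols nonZeroDivisors

noncomputable section

variable {K : Type*} [Field K] [NumberField K] {𝔣 : Ideal (𝓞 K)} {ℓ : ℕ}

/-- the level condition for the field -/
def HK (K : Type*) [Field K] [NumberField K] (M N : ℕ) : Prop :=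
  Nat.Coprime N 2 ∧ ∃ e m : ℕ, (discr K).natAbs = 2 ^ e * m ∧ Odd m ∧ (m * M) ^ 2 ∣ N

/-- the family `Φ(d)(n) = d χ(d) ψ((d)) a_n` -/
def PhiE (ψ : LChar K 𝔣) : Fm := fun d n =>
  (d : L) * (J(discr K | d) : L) * ψ.p (Ideal.span {(d : 𝓞 K)}) * ψ.a n

lemma neg_qd_D (T : ID K) : (-(T.qd.D : ℤ)) = discr K := by rw [T.qd_D]; ring

/-- **the family attached to an ideal is a 2-adic modular form** -/
theorem WE_mem (T : ID K) (ψ : LChar K 𝔣) (hf : 𝔣 ≠ ⊥) (hf2 : Nat.Coprime (Ideal.absNorm 𝔣) 2)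
    (hJ : IsCoprime T.J (Ideal.span {2} * 𝔣)) {N : ℕ} [NeZero N]
    (hN : HK K (Ideal.absNorm 𝔣) N) : WE T.qd (T.g ψ) ∈ V N := by
  haveI : NeZero (Ideal.absNorm 𝔣) := ⟨by rw [ne_eq, Ideal.absNorm_eq_zero_iff]; exact hf⟩
  refine QE.cont_mem T.lc hf2 ?_ (fun m => T.g_cont ψ hJ m)
  rw [HN, T.qd_D']
  exact hN

open scoped Classical in
lemma WE_eq (T : ID K) (ψ : LChar K 𝔣) (hJ : IsCoprime T.J (Ideal.span {2} * 𝔣)) (d n : ℕ) :
    WE T.qd (T.g ψ) d n = (d : L) * (J(discr K | d) : L) *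
      ψ.p (Ideal.span {(d : 𝓞 K)}) * ((Nat.card (𝓞 K)ˣ : L) *
        ∑ 𝔞 ∈ In K n, if cl 𝔞 = (cl T.J)⁻¹ then ψ.p 𝔞 else 0) := by
  rw [WE, neg_qd_D]
  rw [Finset.sum_congr rfl fun v _ => T.g_smul ψ hJ d v, ← Finset.mul_sum]
  have key : ∑ v ∈ T.qd.fib n, ψ.p (T.quo v) = (Nat.card (𝓞 K)ˣ : L) *
        ∑ 𝔞 ∈ In K n, if cl 𝔞 = (cl T.J)⁻¹ then ψ.p 𝔞 else 0 := by
    by_cases hn : n = 0
    · subst hn
      have h1 : ∀ v ∈ T.qd.fib 0, ψ.p (T.quo v) = 0 := by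
        intro v hv
        have := T.quo_mem hv
        rw [mem_In, Ideal.absNorm_eq_zero_iff] at this
        rw [this, ψ.p_bot]
      have h2 : ∀ 𝔞 ∈ In K 0, (if cl 𝔞 = (cl T.J)⁻¹ then ψ.p 𝔞 else 0) = 0 := by
        intro 𝔞 h𝔞
        rw [mem_In, Ideal.absNorm_eq_zero_iff] at h𝔞
        rw [h𝔞, ψ.p_bot]; simp
      rw [Finset.sum_congr rfl h1, Finset.sum_congr rfl h2]; simp
    · rw [← Finset.sum_fiberwise_of_maps_to (g := T.quo) (t := In K n) (fun v hv => T.quo_mem hv),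
        Finset.mul_sum]
      refine Finset.sum_congr rfl fun 𝔞 h𝔞 => ?_
      have h3 : ∀ v ∈ (T.qd.fib n).filter (fun v => T.quo v = 𝔞), ψ.p (T.quo v) = ψ.p 𝔞 := by
        intro v hv
        rw [(Finset.mem_filter.1 hv).2]
      rw [Finset.sum_congr rfl h3, Finset.sum_const, T.card_fibre hn h𝔞, nsmul_eq_mul]
      split_ifs <;> simp
  rw [key]; ring

/-- **the family of a 2-adic character is a 2-adic modular form** -/
theorem PhiE_mem (ψ : LChar K 𝔣) (h2 : finrank ℚ K = 2) (hd : discr K < 0)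
    (hf : 𝔣 ≠ ⊥) (hf2 : Nat.Coprime (Ideal.absNorm 𝔣) 2) {N : ℕ}
    [NeZero N] (hN : HK K (Ideal.absNorm 𝔣) N) : PhiE ψ ∈ V N := by
  classical
  obtain ⟨T0, _⟩ := exists_ID h2 hd (I := (⊤ : Ideal (𝓞 K))) top_ne_bot
  set w : L := (Nat.card (𝓞 K)ˣ : L) with hw
  have hw0 : w ≠ 0 := by
    rw [hw]; exact_mod_cast T0.units_card_ne
  set F : ClassGroup (𝓞 K) → Fm := fun C =>
    if h : ∃ T : ID K, IsCoprime T.J (Ideal.span {2} * 𝔣) ∧ cl T.J = C⁻¹ then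
      w⁻¹ • (WE (Classical.choose h).qd ((Classical.choose h).g ψ)) else 0 with hF
  have hFV : ∀ C, F C ∈ V N := by
    intro C
    rw [hF]; dsimp only
    split_ifs with h
    · exact Submodule.smul_mem _ _ (WE_mem _ ψ hf hf2 (Classical.choose_spec h).1 hN)
    · exact zero_mem _
  have hFe : ∀ (C : ClassGroup (𝓞 K)) (d n : ℕ), F C d n =
      (d : L) * (J(discr K | d) : L) * ψ.p (Ideal.span {(d : 𝓞 K)}) *
        ∑ 𝔞 ∈ In K n, if cl 𝔞 = C then ψ.p 𝔞 else 0 := by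
    intro C d n
    rw [hF]; dsimp only
    split_ifs with h
    · have h1 := Classical.choose_spec h
      rw [Pi.smul_apply, Pi.smul_apply, WE_eq _ ψ h1.1, h1.2, inv_inv, smul_eq_mul, ← hw]
      field_simp
    · rw [Pi.zero_apply, Pi.zero_apply]
      have h3 : ∀ 𝔞 ∈ In K n, (if cl 𝔞 = C then ψ.p 𝔞 else 0) = 0 := by
        intro 𝔞 _
        split_ifs with hc
        · by_contra hne
          apply h
          have hcop : IsCoprime 𝔞 (Ideal.span {2} * 𝔣) := by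
            by_contra h4
            exact hne (ψ.zero _ h4)
          have h𝔞 : 𝔞 ≠ ⊥ := by
            rintro rfl
            exact hne ψ.p_bot
          obtain ⟨T, hT⟩ := exists_ID h2 hd
            (I := 𝔞 ^ (Fintype.card (ClassGroup (𝓞 K)) - 1)) (pow_ne_zero _ h𝔞)
          refine ⟨T, ?_, ?_⟩
          · rw [hT]; exact hcop.pow_left
          · rw [hT, cl_pow h𝔞, hc]
            apply eq_inv_of_mul_eq_one_left
            rw [← pow_succ, Nat.sub_add_cancel Fintype.card_pos, pow_card_eq_one]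
        · rfl
      rw [Finset.sum_congr rfl h3]; simp
  have hsum : PhiE ψ = ∑ C, F C := by
    funext d n
    rw [Finset.sum_apply, Finset.sum_apply]
    rw [Finset.sum_congr rfl fun C _ => hFe C d n, ← Finset.mul_sum, Finset.sum_comm, PhiE,
      LChar.a]
    congr 1
    refine Finset.sum_congr rfl fun 𝔞 _ => ?_
    rw [Finset.sum_ite_eq Finset.univ (cl 𝔞), if_pos (Finset.mem_univ _)]
  rw [hsum]
  exact sum_mem fun C _ => hFV C

/-- the quadratic character -/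
lemma jacobi_splitE (h2 : finrank ℚ K = 2) (hd : discr K < 0) 
    (hℓ : ℓ.Prime) (hℓ2 : ℓ ≠ 2) (hℓD : ¬ (ℓ : ℤ) ∣ discr K) :
    ((∃ 𝔭 : Ideal (𝓞 K), Ideal.absNorm 𝔭 = ℓ) → J(discr K | ℓ) = 1) ∧
    ((¬ ∃ 𝔭 : Ideal (𝓞 K), Ideal.absNorm 𝔭 = ℓ) → J(discr K | ℓ) = -1) := by
  haveI : Fact ℓ.Prime := ⟨hℓ⟩
  obtain ⟨T, hT⟩ := exists_ID h2 hd (I := (⊤ : Ideal (𝓞 K))) top_ne_bot
  have hJ : legendreSym ℓ (-(T.qd.D : ℤ)) = J(discr K | ℓ) := by
    rw [jacobiSym.legendreSym.to_jacobiSym, neg_qd_D]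
  have hℓD' : ¬ (ℓ : ℤ) ∣ T.qd.D := by rw [T.qd_D, dvd_neg]; exact hℓD
  constructor
  · rintro ⟨𝔭, hp⟩
    rw [← hJ]; exact legendre_of_exists h2 T hT hℓD' hp
  · intro hno
    rw [← hJ]
    have hD0 : ((-(T.qd.D : ℤ) : ℤ) : ZMod ℓ) ≠ 0 := by
      rw [ne_eq, ZMod.intCast_zmod_eq_zero_iff_dvd, dvd_neg]; exact hℓD'
    rcases legendreSym.eq_one_or_neg_one ℓ hD0 with h | h
    · exact absurd (exists_of_legendre h2 T hT hℓ2 h) hno
    · exact h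

/-- **the Hecke relation** -/
theorem heckeE (ψ : LChar K 𝔣) (h2 : finrank ℚ K = 2) (hd : discr K < 0)
    (hℓ : ℓ.Prime) (hℓ2 : ℓ ≠ 2) (hℓD : ¬ (ℓ : ℤ) ∣ discr K) (n : ℕ) :
    ψ.a (n * ℓ) + (J(discr K | ℓ) : L) * ψ.p (Ideal.span {(ℓ : 𝓞 K)}) *
      (if ℓ ∣ n then ψ.a (n / ℓ) else 0) = ψ.a ℓ * ψ.a n := by
  obtain ⟨j1, j2⟩ := jacobi_splitE h2 hd hℓ hℓ2 hℓD
  by_cases hex : ∃ 𝔭 : Ideal (𝓞 K), Ideal.absNorm 𝔭 = ℓ
  · rw [j1 hex, Int.cast_one, one_mul]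
    obtain ⟨𝔭, hp⟩ := hex
    obtain ⟨𝔮, hq⟩ := dvd_of_norm hp
    obtain ⟨T, hT⟩ := exists_ID h2 hd (I := (⊤ : Ideal (𝓞 K))) top_ne_bot
    have hℓD' : ¬ (ℓ : ℤ) ∣ T.qd.D := by rw [T.qd_D, dvd_neg]; exact hℓD
    have hqn : Ideal.absNorm 𝔮 = ℓ := by
      have h3 := congrArg Ideal.absNorm hq
      rw [map_mul, absNorm_span_nat h2, hp, pow_two] at h3
      exact (Nat.eq_of_mul_eq_mul_left hℓ.pos h3).symm
    refine ψ.hecke_split h2 hℓ hp hqn ?_ hq.symm n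
    rintro rfl
    exact sq_ne h2 T hT hℓ hℓD' hp hq.symm
  · rw [j2 hex, ψ.hecke_inert h2 hℓ hex]
    have haℓ : ψ.a ℓ = 0 := by
      rw [LChar.a]
      have : In K ℓ = ∅ := by
        rw [Finset.eq_empty_iff_forall_notMem]
        intro 𝔞 h
        rw [mem_In] at h
        exact hex ⟨𝔞, h⟩
      rw [this, Finset.sum_empty]
    rw [haℓ]; push_cast; ring

lemma ne_zero_of_coprime {N d : ℕ} (hd : Nat.Coprime d (2 * N)) : d ≠ 0 := by
  rintro rfl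
  rw [Nat.coprime_zero_left] at hd
  omega

/-- the eigenfamily -/
theorem eigenE (ψ : LChar K 𝔣) (h2 : finrank ℚ K = 2) (hd : discr K < 0)
    {N : ℕ} [NeZero N]
    (hN : ∀ ℓ : ℕ, ℓ.Prime → ¬ ℓ ∣ 2 * N → ¬ (ℓ : ℤ) ∣ discr K) :
    EigenFam N (PhiE ψ) ψ.a
      (fun ℓ => (J(discr K | ℓ) : L) * ψ.p (Ideal.span {(ℓ : 𝓞 K)})) where
  bdd := by
    intro d _ n
    rw [PhiE, norm_mul, norm_mul, norm_mul]
    refine mul_le_one₀ (mul_le_one₀ (mul_le_one₀ (norm_nat_le_one d) (norm_nonneg _)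
      (norm_int_le_one _)) (norm_nonneg _) (ψ.norm_le _)) (norm_nonneg _) (ψ.norm_a_le n)
  one := by
    rw [PhiE, ψ.a_one, Nat.cast_one, Nat.cast_one, Ideal.span_singleton_one,
      ← Ideal.one_eq_top, ψ.one, jacobiSym.one_right]
    simp
  eigT := by
    intro ℓ hℓ d hdc n
    have hℓ2 : ℓ ≠ 2 := by
      rintro rfl
      exact hℓ.2 (dvd_mul_right _ _)
    have hℓ0 : (ℓ : L) ≠ 0 := by exact_mod_cast hℓ.1.ne_zero
    have key := heckeE ψ h2 hd hℓ.1 hℓ2 (hN ℓ hℓ.1 hℓ.2) n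
    have hJ : J(discr K | (d * ℓ)) = J(discr K | d) * J(discr K | ℓ) :=
      jacobiSym.mul_right' _ (ne_zero_of_coprime hdc) hℓ.1.ne_zero
    have hs : ψ.p (Ideal.span {((d * ℓ : ℕ) : 𝓞 K)}) =
        ψ.p (Ideal.span {(d : 𝓞 K)}) * ψ.p (Ideal.span {(ℓ : 𝓞 K)}) := by
      push_cast
      rw [← Ideal.span_singleton_mul_span_singleton, ψ.mul]
    simp only [PhiE]
    rw [hJ, hs]
    have e : (ℓ : L)⁻¹ * (if ℓ ∣ n then ((d * ℓ : ℕ) : L) *
        ((J(discr K | d) * J(discr K | ℓ) : ℤ) : L) *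
        (ψ.p (Ideal.span {(d : 𝓞 K)}) * ψ.p (Ideal.span {(ℓ : 𝓞 K)})) * ψ.a (n / ℓ) else 0) =
        (d : L) * (J(discr K | d) : L) * ψ.p (Ideal.span {(d : 𝓞 K)}) *
        ((J(discr K | ℓ) : L) * ψ.p (Ideal.span {(ℓ : 𝓞 K)}) *
          (if ℓ ∣ n then ψ.a (n / ℓ) else 0)) := by
      split_ifs
      · push_cast; field_simp
      · simp
    rw [e, ← mul_add, key]; ring
  eigS := by
    intro ℓ hℓ d hdc n
    have hℓ0 : (ℓ : L) ≠ 0 := by exact_mod_cast hℓ.1.ne_zero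
    have hJ : J(discr K | (d * ℓ)) = J(discr K | d) * J(discr K | ℓ) :=
      jacobiSym.mul_right' _ (ne_zero_of_coprime hdc) hℓ.1.ne_zero
    have hs : ψ.p (Ideal.span {((d * ℓ : ℕ) : 𝓞 K)}) =
        ψ.p (Ideal.span {(d : 𝓞 K)}) * ψ.p (Ideal.span {(ℓ : 𝓞 K)}) := by
      push_cast
      rw [← Ideal.span_singleton_mul_span_singleton, ψ.mul]
    simp only [PhiE]
    rw [hJ, hs]
    push_cast
    field_simp

end

end Vale.Agent.P022.H390E
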