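import Vale.Agent.P022.H390E.Trc
import Vale.Agent.P022.H390.Cont

/-!
# P022: 2-adic boundedness of theta series at all cusps; even discriminants
-/

namespace Vale.Agent.P022.H390E

open Vale.Agent.P022.H390
open UpperHalfPlane hiding I
open ModularForm CongruenceSubgroup Matrix.SpecialLinearGroup
open scoped MatrixGroups ModularForm Manifold Real Nat NumberTheorySymbols
open Complex (I exp)

noncomputable section

lemma norm_ee_rat {x : ℂ} {b : ℕ} {n : ℤ} (hb : b ≠ 0) (hx : (b : ℂ) * x = n) :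
    ‖iota (ee x)‖ = 1 := by
  apply norm_root hb
  have : ee x ^ b = ee (b * x) := by
    rw [ee, ee, ← Complex.exp_nat_mul]; congr 1; ring
  rw [this, hx, ee_int]

lemma AB_of_finite {Γ : Subgroup SL(2, ℤ)} [Γ.FiniteIndex] {k : ℤ} {F : ℍ → ℂ}
    (hinv : ∀ γ ∈ Γ, F ∣[k] γ = F) (h : ∀ γ : SL(2, ℤ), ∃ C, Bd C (F ∣[k] γ)) : AB k F := by
  obtain ⟨P⟩ := exists_reps Γ ⊤
  choose C hC using fun i => h (P.x i)⁻¹
  refine ⟨∑ i, C i, fun γ => ?_⟩
  obtain ⟨i, hi⟩ := P.cover γ⁻¹ trivial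
  have e : γ = ((P.x i)⁻¹ * γ⁻¹)⁻¹ * (P.x i)⁻¹ := by group
  have e2 : F ∣[k] γ = F ∣[k] (P.x i)⁻¹ := by
    rw [e, SlashAction.slash_mul, hinv _ (inv_mem hi)]
  rw [e2]
  exact (hC i).mono (Finset.single_le_sum (f := C) (fun j _ => (hC j).nonneg) (Finset.mem_univ i))

namespace QE

variable {q : QD} {M P NN : ℕ} [NeZero M] [NeZero P] [NeZero NN] {h : ℤ × ℤ → ℂ}

/-- the dual data -/
def dual (q : QD) : QD where
  A := q.C
  B := -q.B
  C := q.A
  m1 := 0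
  m2 := 0
  hA := q.hC
  hD := by have := q.hD; nlinarith
  hm := by simp [Qc]

lemma dual_Qn (q : QD) (v : ℤ × ℤ) : (dual q).Qn v = q.Qdn v := by
  have : (dual q).Q v = q.Qd v := by
    simp only [QD.Q, QD.Qd, dual]; ring
  rw [QD.Qn, QD.Qdn, this]

lemma finite_Qdn (q : QD) (n : ℕ) : {v : ℤ × ℤ | q.Qdn v = n}.Finite := by
  have := (dual q).fib_finite n
  simpa only [dual_Qn] using this

lemma norm_FT_le (hh : Per M h) {α c : ℤ} (hc : c ≠ 0) : ∃ C : ℝ, 0 ≤ C ∧ ∀ n : ℤ × ℤ,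
    ‖iota (FT P (q.tw h α c) n)‖ ≤ C := by
  obtain ⟨C, hC, hC'⟩ := QD.bdd_iota hh
  refine ⟨C, hC, fun n => ?_⟩
  rw [FT, SP, map_sum]
  apply norm_sum_le _ _ hC
  intro w _
  rw [map_mul, norm_mul, QD.tw, map_mul, norm_mul]
  have hcC : (c : ℂ) ≠ 0 := by exact_mod_cast hc
  have hPC : (P : ℂ) ≠ 0 := by exact_mod_cast (NeZero.ne P)
  have h1 : ‖iota (ee (α * q.Q (rp w) / c))‖ = 1 := by
    apply norm_ee_rat (b := c.natAbs) (n := c.sign * (α * q.Q (rp w))) (Int.natAbs_ne_zero.2 hc)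
    have e : ((c.natAbs : ℕ) : ℂ) = (c.sign : ℂ) * c := by
      have h : (((c.natAbs : ℕ) : ℤ) : ℂ) = ((c.sign * c : ℤ) : ℂ) := by
        rw [Int.sign_mul_self_eq_natAbs]
      rw [Int.cast_natCast, Int.cast_mul] at h
      exact h
    rw [e]; push_cast; field_simp
  have h2 : ‖iota (ee ((n.1 * (rp w).1 + n.2 * (rp w).2) / P))‖ = 1 := by
    apply norm_ee_rat (b := P) (n := n.1 * (rp w).1 + n.2 * (rp w).2) (NeZero.ne P)
    push_cast; field_simp
  rw [h1, h2, mul_one, mul_one]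
  exact hC' _

/-- theta series are 2-adically bounded at every cusp -/
theorem bd_tf_slash (hh : Per M h) (a : ℕ) (γ : SL(2, ℤ)) :
    ∃ C, Bd C (q.tf a h ∣[((a + 1 : ℕ) : ℤ)] γ) := by
  have hb : Bq (∑ _x : Unit, 0) (0 : ℍ → ℂ) := by
    refine ⟨?_, fun n => ?_⟩
    · have := (Good.one (h := 1)).smul (0 : ℂ)
      rwa [zero_smul] at this
    · simp [qc, qExpansion_zero]
  by_cases hc : γ 1 0 = 0
  · rw [QD.tf_slash_of_zero hh a γ hc]
    obtain ⟨C1, hC1⟩ := QD.bdd_lam q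
    obtain ⟨C2, hC2, hC2'⟩ := QD.bdd_iota hh
    have hC1' : 0 ≤ C1 := (norm_nonneg _).trans (hC1 0)
    refine ⟨_, Bd.smul _ (C := C2 * C1 ^ a) (Bd.of_Bq ⟨QD.tf_good hh a, fun n => ?_⟩)⟩
    rw [QD.qc_tf' hh, map_sum]
    apply norm_sum_le _ _ (by positivity)
    intro v _
    rw [map_mul, map_pow, norm_mul, norm_pow]
    exact mul_le_mul (hC2' v) (pow_le_pow_left₀ (norm_nonneg _) (hC1 v) a) (by positivity) hC2
  · set c : ℤ := γ 1 0 with hcd
    set P : ℕ := c.natAbs * M with hP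
    haveI : NeZero P := ⟨mul_ne_zero (Int.natAbs_ne_zero.2 hc) (NeZero.ne M)⟩
    have hM : M ∣ P := ⟨c.natAbs, by rw [hP, mul_comm]⟩
    have hcP : γ 1 0 ∣ (P : ℤ) := by
      rw [hP]; push_cast
      exact dvd_mul_of_dvd_left (by rw [← hcd]; exact (dvd_abs c c).2 dvd_rfl) _
    have hPc : (P : ℂ) ^ 2 = c ^ 2 * M ^ 2 := by
      rw [hP]; push_cast
      have : ((c.natAbs : ℕ) : ℂ) ^ 2 = (c : ℂ) ^ 2 := by
        have h : ((((c.natAbs : ℕ) : ℤ) ^ 2 : ℤ) : ℂ) = ((c ^ 2 : ℤ) : ℂ) := by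
          rw [Int.natAbs_sq]
        rw [Int.cast_pow, Int.cast_natCast, Int.cast_pow] at h
        exact h
      rw [mul_pow, this]
    have hcC : (c : ℂ) ≠ 0 := by exact_mod_cast hc
    have hDC : (q.D : ℂ) ≠ 0 := by exact_mod_cast q.D_pos.ne'
    have hMC : (M : ℂ) ≠ 0 := by exact_mod_cast (NeZero.ne M)
    have hPC : (P : ℂ) ≠ 0 := by exact_mod_cast (NeZero.ne P)
    set H : ℕ := q.D * M ^ 2 with hH
    have hH0 : 0 < H := Nat.mul_pos q.D_pos (pow_pos (NeZero.pos M) 2)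
    set cf : ℤ × ℤ → ℂ := fun n => (-(c : ℂ)) ^ (a + 1) *
      (I / (Real.sqrt q.D * P ^ (a + 2))) * (FT P (q.tw h (γ 0 0) c) n *
        (n.1 * q.m1 + n.2 * q.m2) ^ a * ee (c * γ 1 1 * q.Qd n / (q.D * P ^ 2))) with hcf
    have key : ∀ z : ℍ, HasSum (fun n : ℤ × ℤ => cf n * qq z ^ (q.Qdn n))
        (sc H (q.tf a h ∣[((a + 1 : ℕ) : ℤ)] γ) z) := by
      intro z
      rw [sc, QD.slash_tf (P := P) hh a γ hc hM hcP]
      refine ((QD.slash_tf_summable (q := q) (P := P) hh a γ hc hM hcP _).hasSum.mul_left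
        _).congr_fun fun n => ?_
      rw [← hcd, hcf]
      have e : ee (c * (c * ((mat H 0 0 1 • z : ℍ) : ℂ) + γ 1 1) * q.Qd n / (q.D * P ^ 2)) =
          ee (c * γ 1 1 * q.Qd n / (q.D * P ^ 2)) * qq z ^ (q.Qdn n) := by
        rw [coe_sc hH0, qq_pow, ee, ee, ← Complex.exp_add, ← q.Qdn_eq, hPc, hH]
        congr 1
        push_cast
        field_simp
        ring
      rw [e]; ring
    have key2 : ∀ z : ℍ, HasSum (fun m : ℕ => (∑' v : {v // q.Qdn v = m}, cf v) * qq z ^ m)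
        (sc H (q.tf a h ∣[((a + 1 : ℕ) : ℤ)] γ) z) := fun z =>
      hasSum_regroup (Function.Periodic.qParam_ne_zero _) (key z)
    have hg := good_of_hasSum key2
    obtain ⟨C1, hC1, hC1'⟩ := norm_FT_le (P := P) (q := q) hh (α := γ 0 0) hc
    set C2 : ℝ := max ‖iota q.m1‖ ‖iota q.m2‖ with hC2
    have hlin : ∀ n : ℤ × ℤ, ‖iota (n.1 * q.m1 + n.2 * q.m2)‖ ≤ C2 := by
      intro n
      rw [map_add, map_mul, map_mul, map_intCast, map_intCast]
      refine (norm_add_le_max _ _).trans (max_le_max ?_ ?_)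
      · rw [norm_mul]; exact mul_le_of_le_one_left (norm_nonneg _) (norm_int_le_one _)
      · rw [norm_mul]; exact mul_le_of_le_one_left (norm_nonneg _) (norm_int_le_one _)
    have hC20 : 0 ≤ C2 := (norm_nonneg _).trans (le_max_left _ _)
    set A : ℂ := (-(c : ℂ)) ^ (a + 1) * (I / (Real.sqrt q.D * P ^ (a + 2))) with hA
    have hcfb : ∀ n, ‖iota (cf n)‖ ≤ ‖iota A‖ * (C1 * C2 ^ a) := by
      intro n
      rw [hcf]
      dsimp only
      clear_value A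
      rw [map_mul, norm_mul, map_mul, norm_mul, map_mul, norm_mul, map_pow, norm_pow]
      have h2 : ‖iota (ee (c * γ 1 1 * q.Qd n / (q.D * P ^ 2)))‖ = 1 := by
        apply norm_ee_rat (b := q.D * P ^ 2) (n := c * γ 1 1 * q.Qd n)
          (mul_ne_zero q.D_pos.ne' (pow_ne_zero _ (NeZero.ne P)))
        push_cast; field_simp
      rw [h2, mul_one]
      refine mul_le_mul_of_nonneg_left ?_ (norm_nonneg _)
      exact mul_le_mul (hC1' n) (pow_le_pow_left₀ (norm_nonneg _) (hlin n) a) (by positivity) hC1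
    refine ⟨‖iota A‖ * (C1 * C2 ^ a), H, hH0, hg, fun m => ?_⟩
    rw [qc_unique (hg.analytic one_pos) key2 m]
    haveI : Finite {v : ℤ × ℤ // q.Qdn v = m} := (finite_Qdn q m)
    haveI : Fintype {v : ℤ × ℤ // q.Qdn v = m} := Fintype.ofFinite _
    rw [tsum_fintype, map_sum]
    exact norm_sum_le _ _ (by positivity) fun v _ => hcfb v

/-- congruent arguments -/
lemma J_congr {D d d' : ℕ} (hd : Odd d) (hd' : Odd d') (h : d ≡ d' [MOD 4 * D]) :
    J(-(D : ℤ) | d) = J(-(D : ℤ) | d') := by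
  rw [jacobiSym.mod_right _ hd, jacobiSym.mod_right _ hd']
  have : (-(D : ℤ)).natAbs = D := by rw [Int.natAbs_neg, Int.natAbs_natCast]
  rw [this]
  have h2 : d % (4 * D) = d' % (4 * D) := h
  rw [h2]

lemma J_inv {D d d' : ℕ} (hd : Odd d) (hd' : Odd d') (h : d * d' ≡ 1 [MOD 4 * D]) :
    J(-(D : ℤ) | d) = J(-(D : ℤ) | d') := by
  have h1 := J_congr (D := D) (hd.mul hd') odd_one h
  rw [jacobiSym.one_right, jacobiSym.mul_right' _ hd.pos.ne' hd'.pos.ne'] at h1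
  rcases Int.eq_one_or_neg_one_of_mul_eq_one' h1 with h2 | h2 <;> rw [h2.1, h2.2]

lemma J_sq {D d : ℕ} (h : Nat.Coprime d D) (hd : 0 < d) : J(-(D : ℤ) | d) * J(-(D : ℤ) | d) = 1 := by
  have hg : Int.gcd (-(D : ℤ)) d = 1 := by
    rw [Int.gcd_eq_natAbs, Int.natAbs_neg, Int.natAbs_natCast, Int.natAbs_natCast]; exact h.symm
  have := jacobiSym.sq_one hg
  rwa [sq] at this

/-- the multiplier for even discriminants -/
theorem kap_even {c : ℕ} [NeZero c] {α : ℤ} (h4 : 4 ∣ q.D) (hDc : q.D ^ 2 ∣ c) {d : ℕ}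
    (hd : Nat.Coprime d c) (hα : (c : ℤ) ∣ α - d) : q.kap α c = (J(-(q.D : ℤ) | d) : ℂ) := by
  have hαd : ((α : ℤ) : ZMod c) = (d : ZMod c) := by
    have := (ZMod.intCast_zmod_eq_zero_iff_dvd _ _).2 hα
    push_cast at this
    exact sub_eq_zero.1 this
  have hunit : IsUnit ((α : ZMod c)) := by
    rw [hαd]; exact (ZMod.isUnit_iff_coprime d c).2 hd
  obtain ⟨ℓ, hℓ2, hℓ, hℓα⟩ := Nat.forall_exists_prime_gt_and_eq_mod hunit 2
  haveI : Fact ℓ.Prime := ⟨hℓ⟩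
  have hdiv : (c : ℤ) ∣ α - ℓ := by
    rw [← ZMod.intCast_zmod_eq_zero_iff_dvd]
    push_cast; rw [hℓα, sub_self]
  have hcop : Nat.Coprime ℓ c := by
    rw [← ZMod.isUnit_iff_coprime, hℓα]; exact hunit
  have h4D : 4 * q.D ∣ c := by
    refine dvd_trans ?_ hDc
    rw [sq]; exact Nat.mul_dvd_mul_right h4 _
  have h2c : 2 ∣ c := (show 2 ∣ 4 by norm_num).trans ((dvd_mul_right 4 q.D).trans h4D)
  have hdo : Odd d := by
    rw [← Nat.coprime_two_right]; exact hd.coprime_dvd_right h2c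
  rw [QD.kap, QD.Gs_congr hdiv, QD.Gs_prime hDc hℓ2.ne' hcop, QD.Gs_one hDc,
    jacobiSym.legendreSym.to_jacobiSym]
  have hJ : J(-(q.D : ℤ) | ℓ) = J(-(q.D : ℤ) | d) := by
    apply J_congr (hℓ.odd_of_ne_two hℓ2.ne') hdo
    have h5 : ((ℓ : ℕ) : ZMod c) = (d : ZMod c) := by rw [← hαd, hℓα]
    rw [ZMod.natCast_eq_natCast_iff] at h5
    exact h5.of_dvd h4D
  rw [hJ]
  have hc : (c : ℂ) ≠ 0 := by exact_mod_cast (NeZero.ne c)
  have hsq : ((Real.sqrt q.D : ℝ) : ℂ) ≠ 0 := by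
    exact_mod_cast (Real.sqrt_pos.2 (by exact_mod_cast q.D_pos)).ne'
  rw [div_eq_iff (mul_ne_zero hc hsq)]
  linear_combination (-(J(-(q.D : ℤ) | d) : ℂ) * c * (Real.sqrt q.D : ℝ)) * Complex.I_mul_I

end QE

end

end Vale.Agent.P022.H390E
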