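import Vale.Agent.P022.H390E.Dbs

/-!
# P022: traces, and the transfer from level `Γ₁(N) ∩ Γ₀(2^r)` to tame level `N`
-/

namespace Vale.Agent.P022.H390E

open Vale.Agent.P022.H390
open UpperHalfPlane hiding I
open ModularForm CongruenceSubgroup Matrix.SpecialLinearGroup
open scoped MatrixGroups ModularForm Manifold Real

noncomputable section

variable {f g F : ℍ → ℂ} {C C' : ℝ} {k : ℤ} {Γ Γ' : Subgroup SL(2, ℤ)} {N r R : ℕ}

/-- representatives -/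
structure Reps (Γ Γ' : Subgroup SL(2, ℤ)) where
  /-- index set -/
  ι : Type
  /-- finiteness -/
  fin : Fintype ι
  /-- the representatives -/
  x : ι → SL(2, ℤ)
  mem : ∀ i, x i ∈ Γ'
  cover : ∀ y ∈ Γ', ∃ i, (x i)⁻¹ * y ∈ Γ
  inj : ∀ i j, (x i)⁻¹ * x j ∈ Γ → i = j

instance (P : Reps Γ Γ') : Fintype P.ι := P.fin

lemma exists_reps (Γ Γ' : Subgroup SL(2, ℤ)) [Γ.FiniteIndex] : Nonempty (Reps Γ Γ') := by
  refine ⟨⟨Γ' ⧸ (Γ.subgroupOf Γ'), Fintype.ofFinite _, fun q => (q.out : Γ'), fun q => q.out.2,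
    ?_, ?_⟩⟩
  · intro y hy
    refine ⟨QuotientGroup.mk ⟨y, hy⟩, ?_⟩
    have h1 : QuotientGroup.mk (s := Γ.subgroupOf Γ')
        (Quotient.out (QuotientGroup.mk (s := Γ.subgroupOf Γ') (⟨y, hy⟩ : Γ'))) =
        QuotientGroup.mk ⟨y, hy⟩ := QuotientGroup.out_eq' _
    rw [QuotientGroup.eq, Subgroup.mem_subgroupOf] at h1
    exact h1
  · intro i j h
    have h1 : QuotientGroup.mk (s := Γ.subgroupOf Γ') i.out = QuotientGroup.mk j.out := by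
      rw [QuotientGroup.eq, Subgroup.mem_subgroupOf]
      exact h
    have h2 := QuotientGroup.out_eq' i
    have h3 := QuotientGroup.out_eq' j
    rw [← h2, ← h3]; exact h1

lemma Reps.sum_eq (P : Reps Γ Γ') (hf : ∀ γ ∈ Γ, f ∣[k] γ = f) (y : P.ι → SL(2, ℤ))
    (hy : ∀ i, y i ∈ Γ') (hinj : ∀ i j, (y i)⁻¹ * y j ∈ Γ → i = j) :
    ∑ i, f ∣[k] (y i)⁻¹ = ∑ i, f ∣[k] (P.x i)⁻¹ := by
  choose e he using fun i => P.cover (y i) (hy i)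
  have hei : Function.Injective e := by
    intro i j hij
    apply hinj
    have h1 := mul_mem (inv_mem (he i)) (he j)
    rw [hij] at h1
    have e1 : ((P.x (e j))⁻¹ * y i)⁻¹ * ((P.x (e j))⁻¹ * y j) = (y i)⁻¹ * y j := by group
    rwa [e1] at h1
  have hb : Function.Bijective e := Finite.injective_iff_bijective.1 hei
  rw [← hb.sum_comp (fun i => f ∣[k] (P.x i)⁻¹)]
  refine Finset.sum_congr rfl fun i _ => ?_
  have e2 : (y i)⁻¹ = ((P.x (e i))⁻¹ * y i)⁻¹ * (P.x (e i))⁻¹ := by group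
  rw [e2, SlashAction.slash_mul, hf _ (inv_mem (he i))]

/-- the trace -/
def Reps.tr (P : Reps Γ Γ') (k : ℤ) (f : ℍ → ℂ) : ℍ → ℂ := ∑ i, f ∣[k] (P.x i)⁻¹

lemma Reps.tr_slash (P : Reps Γ Γ') (hf : ∀ γ ∈ Γ, f ∣[k] γ = f) {γ : SL(2, ℤ)} (hγ : γ ∈ Γ') :
    (P.tr k f) ∣[k] γ = P.tr k f := by
  rw [Reps.tr, SlashAction.sum_slash]
  rw [← P.sum_eq hf (fun i => γ⁻¹ * P.x i) (fun i => mul_mem (inv_mem hγ) (P.mem i))
    (fun i j h => P.inj i j (by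
      have : (γ⁻¹ * P.x i)⁻¹ * (γ⁻¹ * P.x j) = (P.x i)⁻¹ * P.x j := by group
      rwa [this] at h))]
  refine Finset.sum_congr rfl fun i _ => ?_
  rw [← SlashAction.slash_mul, mul_inv_rev, inv_inv]

lemma Reps.tr_conj (P : Reps Γ Γ') {γ : SL(2, ℤ)} (hf : ∀ δ ∈ Γ, (f ∣[k] γ) ∣[k] δ = f ∣[k] γ)
    (h1 : ∀ x ∈ Γ', γ⁻¹ * x * γ ∈ Γ') (h2 : ∀ x, γ⁻¹ * x * γ ∈ Γ → x ∈ Γ) :
    (P.tr k f) ∣[k] γ = P.tr k (f ∣[k] γ) := by
  rw [Reps.tr, SlashAction.sum_slash, Reps.tr]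
  rw [← P.sum_eq hf (fun i => γ⁻¹ * P.x i * γ) (fun i => h1 _ (P.mem i))
    (fun i j h => P.inj i j (h2 _ (by
      have : (γ⁻¹ * P.x i * γ)⁻¹ * (γ⁻¹ * P.x j * γ) = γ⁻¹ * ((P.x i)⁻¹ * P.x j) * γ := by group
      rwa [this] at h)))]
  refine Finset.sum_congr rfl fun i _ => ?_
  rw [← SlashAction.slash_mul, ← SlashAction.slash_mul]
  congr 1
  group

lemma AB.tr (P : Reps Γ Γ') (h : AB k f) : AB k (P.tr k f) := by
  rw [Reps.tr]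
  exact AB.sum _ _ fun i _ => h.slash _

/-- `Γ₁(N) ∩ Γ₀(2^r)` -/
def GG (N r : ℕ) : Subgroup SL(2, ℤ) := Gamma1 N ⊓ Gamma0 (2 ^ r)

lemma mem_Gamma0_iff {M : ℕ} {γ : SL(2, ℤ)} : γ ∈ Gamma0 M ↔ (M : ℤ) ∣ γ 1 0 := by
  rw [Gamma0_mem, ZMod.intCast_zmod_eq_zero_iff_dvd]

lemma mem_GG {γ : SL(2, ℤ)} : γ ∈ GG N r ↔ γ ∈ Gamma1 N ∧ (2 ^ r : ℤ) ∣ γ 1 0 := by
  rw [GG, Subgroup.mem_inf, mem_Gamma0_iff]
  push_cast
  rfl

instance [NeZero N] : (GG N r).FiniteIndex := by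
  haveI : NeZero (2 ^ r) := ⟨by positivity⟩
  rw [GG]; infer_instance

/-- forms of level `Γ₁(N) ∩ Γ₀(2^r)`, 2-adically bounded at all cusps -/
structure Lv (N r : ℕ) (k : ℤ) (F : ℍ → ℂ) : Prop where
  inv : ∀ γ ∈ GG N r, F ∣[k] γ = F
  ab : AB k F

lemma Gamma1_conj {γ x : SL(2, ℤ)} (hγ : γ ∈ Gamma0 N) (hx : x ∈ Gamma1 N) :
    γ * x * γ⁻¹ ∈ Gamma1 N := by
  apply mul_inv_mem_Gamma1 (mul_mem hγ (Gamma1_in_Gamma0 N hx)) hγ
  have : (γ * x) 1 1 = γ 1 0 * x 0 1 + γ 1 1 * x 1 1 := by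
    simp [Matrix.SpecialLinearGroup.coe_mul, Matrix.mul_apply, Fin.sum_univ_two]
  rw [Gamma1_mem] at hx
  rw [Gamma0_mem] at hγ
  rw [this]; push_cast; rw [hγ, hx.2.1]; ring

lemma GG_conj {γ x : SL(2, ℤ)} (hγ : γ ∈ Gamma0 N) (hγ2 : γ ∈ Gamma0 (2 ^ r)) (hx : x ∈ GG N r) :
    γ * x * γ⁻¹ ∈ GG N r :=
  ⟨Gamma1_conj hγ hx.1, (Gamma0 (2 ^ r)).mul_mem ((Gamma0 (2 ^ r)).mul_mem hγ2 hx.2)
    ((Gamma0 (2 ^ r)).inv_mem hγ2)⟩

lemma Gamma0_le {M M' : ℕ} (h : M ∣ M') : Gamma0 M' ≤ Gamma0 M := by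
  intro γ hγ
  rw [mem_Gamma0_iff] at hγ ⊢
  exact dvd_trans (by exact_mod_cast h) hγ

lemma Lv.slash (hF : Lv N r k F) {γ : SL(2, ℤ)} (hγ : γ ∈ Gamma0 N) (hγ2 : γ ∈ Gamma0 (2 ^ r)) :
    Lv N r k (F ∣[k] γ) where
  inv δ hδ := by
    rw [← SlashAction.slash_mul]
    have e : γ * δ = (γ * δ * γ⁻¹) * γ := by group
    rw [e, SlashAction.slash_mul, hF.inv _ (GG_conj hγ hγ2 hδ)]
  ab := hF.ab.slash γ

lemma GG_le (N r : ℕ) : GG N (r + 1) ≤ GG N r := by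
  intro γ hγ
  refine ⟨hγ.1, Gamma0_le ?_ hγ.2⟩
  exact pow_dvd_pow 2 (Nat.le_succ r)

/-- **the descent step** -/
theorem Lv.step [NeZero N] (hF : Lv N (r + 1) k F) {C : ℝ}
    (hC : ∀ γ : SL(2, ℤ), Bd C (F ∣[k] γ)) (j : ℕ) :
    ∃ F1 : ℍ → ℂ, Lv N r (k + 4 * ((2 ^ j : ℕ) : ℤ)) F1 ∧ ∀ γ ∈ Gamma0 N, γ ∈ Gamma0 (2 ^ (r + 1)) →
      Bd ((1 / 2) ^ (j + 1) * C) (F1 ∣[k + 4 * ((2 ^ j : ℕ) : ℤ)] γ - F ∣[k] γ) := by
  classical
  set m : ℕ := 2 ^ j with hm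
  set w : ℤ := k + 4 * (m : ℤ) with hw
  obtain ⟨P⟩ := exists_reps (GG N (r + 1)) (GG N r)
  have hC0 : 0 ≤ C := (hC 1).nonneg
  have hgi : ∀ γ ∈ Gamma0 (2 ^ (r + 1)), gE r ∣[(4 : ℤ)] γ = gE r := fun γ hγ =>
    G0_gE r γ (mem_Gamma0_iff.1 hγ)
  have hPs : ∀ γ, (F * gE r ^ m) ∣[w] γ = (F ∣[k] γ) * (gE r ∣[(4 : ℤ)] γ) ^ m := fun γ =>
    mul_pow_slash γ m
  have hPi : ∀ γ ∈ GG N (r + 1), (F * gE r ^ m) ∣[w] γ = F * gE r ^ m := fun γ hγ => by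
    rw [hPs, hF.inv γ hγ, hgi γ hγ.2]
  refine ⟨P.tr w (F * gE r ^ m), ⟨fun γ hγ => P.tr_slash hPi hγ, AB.tr P ?_⟩, ?_⟩
  · exact hF.ab.mul ((AB_gE r).pow m)
  · intro γ hγ hγ2
    have hL := hF.slash hγ hγ2
    have hγ3 : γ ∈ Gamma0 (2 ^ r) := Gamma0_le (pow_dvd_pow 2 (Nat.le_succ r)) hγ2
    have hPγ : (F * gE r ^ m) ∣[w] γ = (F ∣[k] γ) * gE r ^ m := by rw [hPs, hgi γ hγ2]
    have hPs' : ∀ δ, ((F ∣[k] γ) * gE r ^ m) ∣[w] δ =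
        (F ∣[k] (γ * δ)) * (gE r ∣[(4 : ℤ)] δ) ^ m := fun δ => by
      rw [SlashAction.slash_mul]; exact mul_pow_slash δ m
    have hPi' : ∀ δ ∈ GG N (r + 1), ((F * gE r ^ m) ∣[w] γ) ∣[w] δ = (F * gE r ^ m) ∣[w] γ := by
      intro δ hδ
      rw [hPγ, hPs', SlashAction.slash_mul, hL.inv δ hδ, hgi δ hδ.2]
    rw [P.tr_conj hPi' ?_ ?_]
    · rw [hPγ, Reps.tr]
      obtain ⟨i0, hi0⟩ := P.cover 1 (one_mem _)
      rw [mul_one] at hi0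
      have hi0' : ((F ∣[k] γ) * gE r ^ m) ∣[w] (P.x i0)⁻¹ = (F ∣[k] γ) * gE r ^ m := by
        have := hPi' _ hi0
        rwa [hPγ] at this
      rw [← Finset.add_sum_erase _ _ (Finset.mem_univ i0), hi0']
      have e : (F ∣[k] γ) * gE r ^ m + ∑ x ∈ Finset.univ.erase i0,
          ((F ∣[k] γ) * gE r ^ m) ∣[w] (P.x x)⁻¹ - F ∣[k] γ =
          (gE r ^ m - 1) * (F ∣[k] γ) + ∑ x ∈ Finset.univ.erase i0,
          ((F ∣[k] γ) * gE r ^ m) ∣[w] (P.x x)⁻¹ := by ring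
      rw [e]
      refine Bd.add (((bd_gE r).pow_two_pow j).mul (hC γ)) (Bd.sum _ _ (by positivity) ?_)
      intro i hi
      rw [hPs', mul_comm (F ∣[k] (γ * (P.x i)⁻¹))]
      have hne : P.x i ∉ GG N (r + 1) := by
        intro hmem
        have := P.inj i0 i (mul_mem hi0 hmem)
        exact (Finset.ne_of_mem_erase hi) this.symm
      have h10 : ((P.x i)⁻¹) 1 0 = -(P.x i 1 0) := by
        simp [Matrix.adjugate_fin_two]
      have hx := P.mem i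
      have hb : Bd (1 / 2) (gE r ∣[(4 : ℤ)] (P.x i)⁻¹) := by
        apply bd_gE_odd
        · rw [h10, dvd_neg]; exact (mem_GG.1 hx).2
        · rw [h10, dvd_neg]
          intro hd
          exact hne (mem_GG.2 ⟨hx.1, hd⟩)
      refine ((hb.pow m).mul (hC _)).mono ?_
      refine mul_le_mul_of_nonneg_right ?_ hC0
      refine pow_le_pow_of_le_one (by norm_num) (by norm_num) ?_
      have : j < 2 ^ j := Nat.lt_two_pow_self
      omega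
    · intro x hx
      have := GG_conj (γ := γ⁻¹) (inv_mem hγ) (inv_mem hγ3) hx
      rwa [inv_inv] at this
    · intro x hx
      have := GG_conj hγ hγ2 hx
      have e : γ * (γ⁻¹ * x * γ) * γ⁻¹ = x := by group
      rwa [e] at this

lemma Lv.good (hF : Lv N r k F) : Good 1 F := by
  obtain ⟨C, hC⟩ := hF.ab
  have h1 := hC 1
  rw [SlashAction.slash_one] at h1
  apply h1.good (k := k)
  apply hF.inv
  rw [mem_GG, Gamma1_mem, T_00, T_11, T_10]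
  simp

lemma Lv.isMF (hF : Lv N 0 k F) : IsMF N k F := by
  obtain ⟨C, hC⟩ := hF.ab
  refine ⟨fun γ hγ => hF.inv γ (mem_GG.2 ⟨hγ, by simp⟩), ?_, fun γ => (hC γ).bdd⟩
  have h1 := hC 1
  rw [SlashAction.slash_one] at h1
  exact h1.holo

lemma dia_mem_Gamma0_N (N R d : ℕ) : dia (N * 2 ^ R) d ∈ Gamma0 N :=
  Gamma0_le (dvd_mul_right _ _) (dia_mem _ _)

lemma dia_mem_Gamma0_two (N d : ℕ) {r R : ℕ} (h : r ≤ R) : dia (N * 2 ^ R) d ∈ Gamma0 (2 ^ r) :=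
  Gamma0_le (Dvd.dvd.mul_left (pow_dvd_pow 2 h) _) (dia_mem _ _)

lemma coprime_two_pow {d : ℕ} (hd : Nat.Coprime d (2 * N)) (R : ℕ) : Nat.Coprime d (N * 2 ^ R) :=
  (Nat.Coprime.coprime_mul_left_right hd).mul_right
    (Nat.Coprime.pow_right _ (Nat.Coprime.coprime_mul_right_right hd))

/-- the size of a pure family -/
lemma pf_bdd {k : ℕ} {C : ℝ} (hF : Lv N r k F) (hC : ∀ γ : SL(2, ℤ), Bd C (F ∣[(k : ℤ)] γ)) (hr : r ≤ R) :
    BddF N (pf (N * 2 ^ R) k F) C := by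
  intro d _ n
  have hL := hF.slash (dia_mem_Gamma0_N N R d) (dia_mem_Gamma0_two N d hr)
  rw [pf, norm_mul, norm_pow]
  have h1 := (hC (dia (N * 2 ^ R) d)).qc_le hL.good n
  calc ‖(d : L)‖ ^ k * ‖iota (qc (F ∣[(k : ℤ)] dia (N * 2 ^ R) d) n)‖ ≤ 1 * C :=
        mul_le_mul (pow_le_one₀ (norm_nonneg _) (norm_nat_le_one d)) h1 (norm_nonneg _) zero_le_one
    _ = C := one_mul C

lemma norm_d_pow {d : ℕ} (hd : Nat.Coprime d 2) (j : ℕ) :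
    ‖(d : L) ^ (4 * 2 ^ j) - 1‖ ≤ (1 / 2) ^ (j + 1) := by
  have h6 := norm_pow_two_pow (norm_odd_sub_one hd) (j + 2)
  have e : (4 * 2 ^ j) = 2 ^ (j + 2) := by rw [pow_add]; ring
  rw [e]
  exact h6.trans (pow_le_pow_of_le_one (by norm_num) (by norm_num) (by omega))

/-- **transfer to tame level** -/
theorem mem_V_of_Lv [NeZero N] (r : ℕ) : ∀ {k : ℕ} {F : ℍ → ℂ}, 1 ≤ k → r ≤ R → Lv N r k F →
    pf (N * 2 ^ R) k F ∈ V N := by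
  induction r with
  | zero =>
    intro k F hk hr hF
    have hMF := hF.isMF
    obtain ⟨C, hC⟩ := hF.ab
    have key : ∀ d, Nat.Coprime d (2 * N) → pf N k F d = pf (N * 2 ^ R) k F d := by
      intro d hd
      funext n
      rw [pf, pf]
      have h1 : F ∣[(k : ℤ)] dia N d = F ∣[(k : ℤ)] dia (N * 2 ^ R) d := by
        apply IsMF.dia_eq hMF.inv (Nat.Coprime.coprime_mul_left_right hd) (dia_mem_Gamma0_N N R d)
        rw [dia_11 (coprime_two_pow hd R)]; simp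
      rw [h1]
    refine V.congr key (pure_mem_V hk hMF ⟨C, fun d hd n => ?_⟩)
    rw [key d hd]
    exact pf_bdd hF hC hr d hd n
  | succ r ih =>
    intro k F hk hr hF
    obtain ⟨C, hC⟩ := hF.ab
    have hC0 : 0 ≤ C := (hC 1).nonneg
    refine V.closed fun ε hε => ?_
    obtain ⟨j, hj⟩ := exists_pow_lt_of_lt_one (show 0 < ε / (C + 1) by positivity)
      (by norm_num : (1 / 2 : ℝ) < 1)
    have hjC : (1 / 2 : ℝ) ^ (j + 1) * C ≤ ε := by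
      have h1 : (1 / 2 : ℝ) ^ j * (C + 1) ≤ ε := by
        rw [lt_div_iff₀ (by positivity)] at hj; exact hj.le
      have h2 : (0 : ℝ) < (1 / 2) ^ j := by positivity
      rw [pow_succ]
      nlinarith
    obtain ⟨F1, hF1, hb⟩ := hF.step hC j
    have hw : (k : ℤ) + 4 * ((2 ^ j : ℕ) : ℤ) = ((k + 4 * 2 ^ j : ℕ) : ℤ) := by push_cast; ring
    rw [hw] at hF1 hb
    refine ⟨pf (N * 2 ^ R) (k + 4 * 2 ^ j) F1, ih (by omega) (by omega) hF1, fun d hd n => ?_⟩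
    set γ := dia (N * 2 ^ R) d with hγ
    have m1 : γ ∈ Gamma0 N := dia_mem_Gamma0_N N R d
    have m2 : γ ∈ Gamma0 (2 ^ (r + 1)) := dia_mem_Gamma0_two N d hr
    have m3 : γ ∈ Gamma0 (2 ^ r) := dia_mem_Gamma0_two N d (by omega)
    have g1 := (hF1.slash m1 m3).good
    have g2' := (hF.slash m1 m2).good
    have h1 := hb γ m1 m2
    have e0 : F1 ∣[((k + 4 * 2 ^ j : ℕ) : ℤ)] γ - F ∣[(k : ℤ)] γ =
        F1 ∣[((k + 4 * 2 ^ j : ℕ) : ℤ)] γ + (-1 : ℂ) • (F ∣[(k : ℤ)] γ) := by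
      funext z; simp [sub_eq_add_neg]
    have hgd : Good 1 (F1 ∣[((k + 4 * 2 ^ j : ℕ) : ℤ)] γ - F ∣[(k : ℤ)] γ) := by
      rw [e0]; exact g1.add (g2'.smul _)
    have h2 := h1.qc_le hgd n
    have h3 : qc (F1 ∣[((k + 4 * 2 ^ j : ℕ) : ℤ)] γ - F ∣[(k : ℤ)] γ) n =
        qc (F1 ∣[((k + 4 * 2 ^ j : ℕ) : ℤ)] γ) n - qc (F ∣[(k : ℤ)] γ) n := by
      rw [e0, qc, qExpansion_add (g1.analytic one_pos) ((g2'.smul _).analytic one_pos), map_add,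
        qExpansion_smul (g2'.analytic one_pos), PowerSeries.coeff_smul]
      simp only [qc, smul_eq_mul]; ring
    rw [h3, map_sub] at h2
    have h4 := (hC γ).qc_le g2' n
    rw [pf, pf, ← hγ]
    set a := iota (qc (F1 ∣[((k + 4 * 2 ^ j : ℕ) : ℤ)] γ) n) with ha
    set b := iota (qc (F ∣[(k : ℤ)] γ) n) with hb'
    have hd1 : ∀ i : ℕ, ‖(d : L) ^ i‖ ≤ 1 := fun i => by
      rw [norm_pow]; exact pow_le_one₀ (norm_nonneg _) (norm_nat_le_one d)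
    have e1 : (d : L) ^ (k + 4 * 2 ^ j) * a - (d : L) ^ k * b =
      (d : L) ^ (k + 4 * 2 ^ j) * (a - b) + (d : L) ^ k * ((d : L) ^ (4 * 2 ^ j) - 1) * b := by
      rw [pow_add]; ring
    rw [e1]
    refine (norm_add_le_max _ _).trans (max_le ?_ ?_)
    · rw [norm_mul]
      calc ‖(d : L) ^ (k + 4 * 2 ^ j)‖ * ‖a - b‖ ≤ 1 * ((1 / 2) ^ (j + 1) * C) := by
            gcongr
            exact hd1 _
        _ ≤ ε := by rw [one_mul]; exact hjC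
    · rw [norm_mul, norm_mul]
      have hdm := norm_d_pow (Nat.Coprime.coprime_mul_right_right hd) j
      calc ‖(d : L) ^ k‖ * ‖(d : L) ^ (4 * 2 ^ j) - 1‖ * ‖b‖ ≤ 1 * (1 / 2) ^ (j + 1) * C := by
            gcongr
            exact hd1 _
        _ ≤ ε := by rw [one_mul]; exact hjC

end

end Vale.Agent.P022.H390E
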