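import Vale.Agent.P022.H390E.Ga
import Vale.Agent.P022.H390E.Alg

/-!
# P022: killing the nebentypus at `2` with unit theta series
-/

namespace Vale.Agent.P022.H390E

open Vale.Agent.P022.H390
open UpperHalfPlane hiding I
open ModularForm CongruenceSubgroup Matrix.SpecialLinearGroup
open scoped MatrixGroups ModularForm Manifold Real Nat NumberTheorySymbols

noncomputable section

/-- a unit form of level `Γ₀(2^R)` with a quadratic nebentypus `χ` -/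
structure UF (R : ℕ) where
  /-- weight -/
  w : ℕ
  /-- the form -/
  G : ℍ → ℂ
  /-- the character -/
  χ : ℕ → ℤ
  good : Good 1 G
  ab : AB (w : ℤ) G
  χsq : ∀ d : ℕ, Nat.Coprime d 2 → χ d * χ d = 1
  tr : ∀ γ ∈ Gamma0 (2 ^ R), ∀ d : ℕ, Nat.Coprime d 2 → (((2 ^ R : ℕ) : ℤ) ∣ γ 1 1 - d) →
    G ∣[(w : ℤ)] γ = (χ d : ℂ) • G
  canc : ∀ {N : ℕ} [NeZero N] {Φ : Fm} {C : ℝ}, BddF N Φ C →
    mulF (fun d n => (d : L) ^ w * (χ d : L) * iota (qc G n)) Φ ∈ V N → Φ ∈ V N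

variable {R N : ℕ}

/-- the family of a unit form -/
def UF.F (u : UF R) : Fm := fun d n => (d : L) ^ u.w * (u.χ d : L) * iota (qc u.G n)

lemma mulF_oneF (Φ : Fm) : mulF oneF Φ = Φ := by
  apply ps_ext
  intro d
  rw [ps_mul, ps_one, one_mul]

lemma mulF_assoc (Φ Ψ Ξ : Fm) : mulF (mulF Φ Ψ) Ξ = mulF Φ (mulF Ψ Ξ) := by
  apply ps_ext
  intro d
  rw [ps_mul, ps_mul, ps_mul, ps_mul, mul_assoc]

lemma good_ab_bdd {k : ℤ} {G : ℍ → ℂ} (hg : Good 1 G) (hab : AB k G) :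
    ∃ C, 0 ≤ C ∧ ∀ n, ‖iota (qc G n)‖ ≤ C := by
  obtain ⟨C, hC⟩ := hab
  have h1 := hC 1
  rw [SlashAction.slash_one] at h1
  exact ⟨C, h1.nonneg, fun n => h1.qc_le hg n⟩

lemma UF.bdd (u : UF R) (N : ℕ) : ∃ C, BddF N u.F C := by
  obtain ⟨C, hC0, hC⟩ := good_ab_bdd u.good u.ab
  refine ⟨C, fun d _ n => ?_⟩
  rw [UF.F, norm_mul, norm_mul, norm_pow]
  have h1 : ‖(d : L)‖ ^ u.w * ‖((u.χ d : ℤ) : L)‖ ≤ 1 :=
    mul_le_one₀ (pow_le_one₀ (norm_nonneg _) (norm_nat_le_one d)) (norm_nonneg _)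
      (norm_int_le_one _)
  calc ‖(d : L)‖ ^ u.w * ‖((u.χ d : ℤ) : L)‖ * ‖iota (qc u.G n)‖ ≤ 1 * C :=
        mul_le_mul h1 (hC n) (norm_nonneg _) zero_le_one
    _ = C := one_mul C

/-- the trivial unit -/
def UF.one (R : ℕ) : UF R where
  w := 0
  G := 1
  χ := fun _ => 1
  good := Good.one
  ab := by exact_mod_cast AB.one
  χsq := fun _ _ => rfl
  tr := by
    intro γ _ d _ _
    have : (1 : ℍ → ℂ) ∣[((0 : ℕ) : ℤ)] γ = 1 := is_invariant_one γ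
    rw [this]; simp
  canc := by
    intro N _ Φ C _ h
    have e : (fun d n => (d : L) ^ 0 * ((1 : ℤ) : L) * iota (qc (1 : ℍ → ℂ) n) : Fm) = oneF := by
      funext d n
      rw [qc, qExpansion_one, PowerSeries.coeff_one, oneF]
      split_ifs <;> simp
    rw [e, mulF_oneF] at h
    exact h

lemma qc_mul_good {f g : ℍ → ℂ} (hf : Good 1 f) (hg : Good 1 g) (n : ℕ) :
    qc (f * g) n = ∑ p ∈ Finset.HasAntidiagonal.antidiagonal n, qc f p.1 * qc g p.2 := by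
  rw [qc, qExpansion_mul (hf.analytic one_pos) (hg.analytic one_pos), PowerSeries.coeff_mul]
  rfl

lemma qc_smul_good {f : ℍ → ℂ} (hf : Good 1 f) (a : ℂ) (n : ℕ) : qc (a • f) n = a * qc f n := by
  rw [qc, qExpansion_smul (hf.analytic one_pos), PowerSeries.coeff_smul]
  rfl

/-- products of units -/
def UF.mul (u v : UF R) : UF R where
  w := u.w + v.w
  G := u.G * v.G
  χ := fun d => u.χ d * v.χ d
  good := u.good.mul v.good
  ab := by push_cast; exact u.ab.mul v.ab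
  χsq := fun d hd => by
    have h1 := u.χsq d hd
    have h2 := v.χsq d hd
    calc u.χ d * v.χ d * (u.χ d * v.χ d) = (u.χ d * u.χ d) * (v.χ d * v.χ d) := by ring
      _ = 1 := by rw [h1, h2]; rfl
  tr := by
    intro γ hγ d hd hd'
    push_cast
    rw [mul_slash_SL2, u.tr γ hγ d hd hd', v.tr γ hγ d hd hd']
    funext z
    simp only [Pi.mul_apply, Pi.smul_apply, smul_eq_mul]
    ring
  canc := by
    intro N _ Φ C hΦ h
    have e : (fun d n => (d : L) ^ (u.w + v.w) * ((u.χ d * v.χ d : ℤ) : L) *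
        iota (qc (u.G * v.G) n) : Fm) = mulF u.F v.F := by
      funext d n
      rw [qc_mul_good u.good v.good, map_sum, Finset.mul_sum, mulF]
      refine Finset.sum_congr rfl fun p _ => ?_
      rw [UF.F, UF.F, map_mul, pow_add]
      push_cast; ring
    rw [e, mulF_assoc] at h
    obtain ⟨C', hC'⟩ := v.bdd N
    exact v.canc hΦ (u.canc (mulF_bdd hC' hΦ) h)

/-! ### the main transfer -/

/-- the family attached to `g`, with the character `J(-D | d)` -/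
def WE (q : QD) (g : ℤ × ℤ → L) : Fm := fun d n =>
  (d : L) * (J(-(q.D : ℤ) | d) : L) * ∑ v ∈ q.fib n, g (d * v.1, d * v.2)

variable {q : QD} {M : ℕ} [NeZero M] [NeZero N] {h : ℤ × ℤ → ℂ}

lemma WE_sub_le {g g' : ℤ × ℤ → L} {ε : ℝ} (hε : 0 ≤ ε) (h : ∀ v, ‖g' v - g v‖ ≤ ε) (d n : ℕ) :
    ‖WE q g' d n - WE q g d n‖ ≤ ε := by
  rw [WE, WE, ← mul_sub, ← Finset.sum_sub_distrib, norm_mul, norm_mul]
  have h1 := norm_nat_le_one d
  have h2 : ‖((J(-(q.D : ℤ) | d) : ℤ) : L)‖ ≤ 1 := norm_int_le_one _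
  have h3 : ‖∑ v ∈ q.fib n, (g' (d * v.1, d * v.2) - g (d * v.1, d * v.2))‖ ≤ ε :=
    norm_sum_le _ _ hε fun v _ => h _
  calc ‖(d : L)‖ * ‖((J(-(q.D : ℤ) | d) : ℤ) : L)‖ *
        ‖∑ v ∈ q.fib n, (g' (d * v.1, d * v.2) - g (d * v.1, d * v.2))‖
      ≤ 1 * ‖∑ v ∈ q.fib n, (g' (d * v.1, d * v.2) - g (d * v.1, d * v.2))‖ := by
        apply mul_le_mul_of_nonneg_right _ (norm_nonneg _)
        exact mul_le_one₀ h1 (norm_nonneg _) h2
    _ ≤ ε := by rw [one_mul]; exact h3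

lemma base_bdd (hh : Per M h) (a : ℕ) : ∃ C : ℝ, 0 ≤ C ∧ ∀ v, ‖iota (h v * q.lam v ^ a)‖ ≤ C := by
  obtain ⟨C1, hC1⟩ := QD.bdd_lam q
  obtain ⟨C2, hC2, hC2'⟩ := QD.bdd_iota hh
  have hC1' : 0 ≤ C1 := (norm_nonneg _).trans (hC1 0)
  refine ⟨C2 * C1 ^ a, by positivity, fun v => ?_⟩
  rw [map_mul, map_pow, norm_mul, norm_pow]
  exact mul_le_mul (hC2' v) (pow_le_pow_left₀ (norm_nonneg _) (hC1 v) a) (by positivity) hC2

lemma WE_bdd (N : ℕ) (hh : Per M h) (a : ℕ) :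
    ∃ C, BddF N (WE q (fun v => iota (h v * q.lam v ^ a))) C := by
  obtain ⟨C, hC0, hC⟩ := base_bdd (q := q) hh a
  refine ⟨C, fun d _ n => ?_⟩
  have h1 := WE_sub_le (q := q) (g := 0) (g' := fun v => iota (h v * q.lam v ^ a)) hC0
    (fun v => by simpa using hC v) d n
  have h0 : WE q 0 d n = 0 := by simp [WE]
  rwa [h0, sub_zero] at h1

/-- the theta family in terms of `q`-expansions -/
lemma WE_tf (hh : Per M h) (a d n : ℕ) : WE q (fun v => iota (h v * q.lam v ^ a)) d n =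
    (d : L) ^ (a + 1) * (J(-(q.D : ℤ) | d) : L) * iota (qc (q.tf a (QE.dl h d)) n) := by
  rw [WE, QD.qc_tf' (QE.dl_per hh d), map_sum]
  have h2 : ∀ v ∈ q.fib n, iota (h ((d : ℤ) * v.1, (d : ℤ) * v.2) *
      q.lam ((d : ℤ) * v.1, (d : ℤ) * v.2) ^ a) =
      (d : L) ^ a * iota (QE.dl h d v * q.lam v ^ a) := by
    intro v _
    have e : q.lam ((d : ℤ) * v.1, (d : ℤ) * v.2) = d * q.lam v := by
      simp only [QD.lam]; push_cast; ring
    rw [e, mul_pow, QE.dl, map_mul, map_mul, map_mul, map_pow, map_natCast]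
    ring
  rw [Finset.sum_congr rfl h2, ← Finset.mul_sum, pow_succ]
  ring

lemma mem_Gamma0_mul (hN2 : Nat.Coprime N 2) {γ : SL(2, ℤ)} (h1 : γ ∈ Gamma0 N)
    (h2 : γ ∈ Gamma0 (2 ^ R)) : γ ∈ Gamma0 (N * 2 ^ R) := by
  rw [mem_Gamma0_iff] at h1 h2 ⊢
  have hc : IsCoprime (N : ℤ) ((2 ^ R : ℕ) : ℤ) := by
    rw [Nat.isCoprime_iff_coprime]; exact hN2.pow_right R
  have := hc.mul_dvd h1 h2
  push_cast at this ⊢
  exact this

theorem WE_base (u : UF R) (h4 : 4 ∣ q.D) (hh : Per M h) (hN2 : Nat.Coprime N 2) (hMN : M ∣ N)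
    (hN : (q.D * M) ^ 2 ∣ N * 2 ^ R)
    (hχ : ∀ d : ℕ, Nat.Coprime d (2 * N) → (N : ℤ) ∣ (d : ℤ) - 1 → J(-(q.D : ℤ) | d) = u.χ d)
    (a : ℕ) : WE q (fun v => iota (h v * q.lam v ^ a)) ∈ V N := by
  haveI : NeZero (N * 2 ^ R) := ⟨mul_ne_zero (NeZero.ne N) (by positivity)⟩
  obtain ⟨C, hC⟩ := WE_bdd (q := q) N hh a
  refine u.canc hC ?_
  change mulF u.F _ ∈ V N
  set K : ℕ := u.w + (a + 1) with hK
  have hKz : ((K : ℕ) : ℤ) = (u.w : ℤ) + ((a + 1 : ℕ) : ℤ) := by rw [hK]; push_cast; ring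
  set P : ℍ → ℂ := u.G * q.tf a h with hP
  have hPs : ∀ γ : SL(2, ℤ), P ∣[(K : ℤ)] γ =
      (u.G ∣[(u.w : ℤ)] γ) * (q.tf a h ∣[((a + 1 : ℕ) : ℤ)] γ) := by
    intro γ; rw [hKz, hP, mul_slash_SL2]
  have hdvd2 : ((2 ^ R : ℕ) : ℤ) ∣ ((N * 2 ^ R : ℕ) : ℤ) := by
    exact_mod_cast dvd_mul_left _ _
  have hdvdN : (N : ℤ) ∣ ((N * 2 ^ R : ℕ) : ℤ) := by exact_mod_cast dvd_mul_right _ _
  -- action of `Γ₀(N 2^R)`
  have hact : ∀ γ ∈ Gamma0 (N * 2 ^ R), ∀ d : ℕ, Nat.Coprime d (N * 2 ^ R) →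
      Nat.Coprime d 2 → ((N * 2 ^ R : ℕ) : ℤ) ∣ γ 1 1 - d →
      P ∣[(K : ℤ)] γ = ((u.χ d : ℂ) • u.G) * ((J(-(q.D : ℤ) | d) : ℂ) • q.tf a (QE.dl h d)) := by
    intro γ hγ d hd hd2 h11
    rw [hPs, QE.tf_Gamma0 hh h4 hN a hγ hd h11,
      u.tr γ (Gamma0_le (dvd_mul_left _ _) hγ) d hd2 (hdvd2.trans h11)]
  have h4N := QE.four_D_dvd h4 hN
  have h2N : 2 ∣ N * 2 ^ R := (show 2 ∣ 4 by norm_num).trans ((dvd_mul_right 4 q.D).trans h4N)
  have hLv : Lv N R (K : ℤ) P := by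
    constructor
    · intro γ hγ
      have hγ0 : γ ∈ Gamma0 (N * 2 ^ R) :=
        mem_Gamma0_mul hN2 (Gamma1_in_Gamma0 N hγ.1) hγ.2
      have hdet := det_eq γ
      obtain ⟨c, hcN⟩ := mem_Gamma0_iff.1 hγ0
      have hα : IsCoprime (γ 1 1) ((N * 2 ^ R : ℕ) : ℤ) := ⟨γ 0 0, -γ 0 1 * c, by
        linear_combination hdet + γ 0 1 * hcN⟩
      obtain ⟨d, hd, hdα⟩ := QE.exists_nat_congr (N * 2 ^ R) hα
      have hd2 : Nat.Coprime d 2 := hd.coprime_dvd_right h2N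
      have hdN : Nat.Coprime d (2 * N) := hd2.mul_right (hd.coprime_dvd_right (dvd_mul_right _ _))
      have h11 : (N : ℤ) ∣ γ 1 1 - 1 := by
        have := (mem_GG.1 hγ).1
        rw [Gamma1_mem] at this
        rw [← ZMod.intCast_zmod_eq_zero_iff_dvd]; push_cast; rw [this.2.1]; ring
      have hd1 : (N : ℤ) ∣ (d : ℤ) - 1 := by
        have e : (d : ℤ) - 1 = (γ 1 1 - 1) - (γ 1 1 - d) := by ring
        rw [e]; exact dvd_sub h11 (hdvdN.trans hdα)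
      rw [hact γ hγ0 d hd hd2 hdα, hχ d hdN hd1]
      have hdl : QE.dl h d = h := by
        rw [QE.dl_congr hh (e := 1) (dvd_trans (by exact_mod_cast hMN) hd1), QE.dl_one]
      rw [hdl, hP]
      have hsq : ((u.χ d : ℂ)) * (u.χ d : ℂ) = 1 := by exact_mod_cast u.χsq d hd2
      funext z
      simp only [Pi.mul_apply, Pi.smul_apply, smul_eq_mul]
      linear_combination (u.G z * q.tf a h z) * hsq
    · rw [hKz]; exact u.ab.mul (QE.AB_tf hh h4 a)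
  have hmem := mem_V_of_Lv (R := R) R (k := K) (by omega) le_rfl hLv
  refine V.congr (fun d hd => ?_) hmem
  have hdN : Nat.Coprime d (N * 2 ^ R) := coprime_two_pow hd R
  have hd2 : Nat.Coprime d 2 := Nat.Coprime.coprime_mul_right_right hd
  have h11 : ((N * 2 ^ R : ℕ) : ℤ) ∣ (dia (N * 2 ^ R) d) 1 1 - d := by
    rw [dia_11 hdN]; simp
  funext n
  have hg := QD.tf_good (q := q) (QE.dl_per hh d) a
  rw [pf, hact _ (dia_mem _ _) d hdN hd2 h11, qc_mul_good (u.good.smul _) (hg.smul _), map_sum,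
    Finset.mul_sum, mulF]
  refine Finset.sum_congr rfl fun p _ => ?_
  rw [qc_smul_good u.good, qc_smul_good hg, WE_tf hh, UF.F, map_mul, map_mul, map_mul,
    map_intCast, map_intCast, hK]
  ring

end

end Vale.Agent.P022.H390E
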