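import Vale.Agent.P022.H390E.Unit
import Vale.Agent.P022.H390E.Cnt

/-!
# P022: the units `θ(z)²` and `θ(z) θ(2z)`
-/

namespace Vale.Agent.P022.H390E

open Vale.Agent.P022.H390
open UpperHalfPlane hiding I
open ModularForm CongruenceSubgroup Matrix.SpecialLinearGroup
open scoped MatrixGroups ModularForm Manifold Real Nat NumberTheorySymbols

noncomputable section

variable {R N : ℕ} {q : QD}

/-- the family of the weight one theta series -/
def XF (q : QD) : Fm := fun d n =>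
  (d : L) * (J(-(q.D : ℤ) | d) : L) * ((q.fib n).card : L)

lemma iota_qc_t0 (n : ℕ) : iota (qc q.t0 n) = ((q.fib n).card : L) := by
  rw [QD.t0, QD.qc_tf' QD.per_one]
  simp

lemma dl_const (d : ℤ) : QE.dl (fun _ : ℤ × ℤ => (1 : ℂ)) d = fun _ => 1 := rfl

lemma t0_Gamma0 (h4 : 4 ∣ q.D) {K : ℕ} [NeZero K] (hK : q.D ^ 2 ∣ K) {γ : SL(2, ℤ)}
    (hγ : γ ∈ Gamma0 K) {d : ℕ} (hd : Nat.Coprime d K) (h11 : (K : ℤ) ∣ γ 1 1 - d) :
    q.t0 ∣[((0 + 1 : ℕ) : ℤ)] γ = (J(-(q.D : ℤ) | d) : ℂ) • q.t0 := by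
  have := QE.tf_Gamma0 (q := q) QD.per_one h4 (by rwa [mul_one]) 0 hγ hd h11
  rw [dl_const] at this
  exact this

lemma coprime_D_of (hK : q.D ^ 2 ∣ 2 ^ R) {d : ℕ} (hd : Nat.Coprime d 2) : Nat.Coprime d q.D :=
  (hd.pow_right R).coprime_dvd_right ((dvd_pow_self _ two_ne_zero).trans hK)

lemma pos_of_coprime_two {d : ℕ} (hd : Nat.Coprime d 2) : 0 < d := by
  rcases Nat.eq_zero_or_pos d with rfl | h
  · norm_num at hd
  · exact h

theorem XF_sq (h4 : 4 ∣ q.D) (hR : q.D ^ 2 ∣ 2 ^ R) : mulF (XF q) (XF q) ∈ V 1 := by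
  have hR' : q.D ^ 2 ∣ 1 * 2 ^ R := by rwa [one_mul]
  haveI : NeZero (1 * 2 ^ R) := ⟨by positivity⟩
  set F : ℍ → ℂ := q.t0 * q.t0 with hF
  have hg : Good 1 q.t0 := QD.tf_good QD.per_one 0
  have h2R : 2 ∣ 1 * 2 ^ R :=
    (show 2 ∣ 4 by norm_num).trans (h4.trans ((dvd_pow_self _ two_ne_zero).trans hR'))
  have hact : ∀ γ ∈ Gamma0 (1 * 2 ^ R), F ∣[((2 : ℕ) : ℤ)] γ = F := by
    intro γ hγ
    have hdet := det_eq γ
    obtain ⟨c, hcN⟩ := mem_Gamma0_iff.1 hγ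
    have hα : IsCoprime (γ 1 1) ((1 * 2 ^ R : ℕ) : ℤ) := ⟨γ 0 0, -γ 0 1 * c, by
      linear_combination hdet + γ 0 1 * hcN⟩
    obtain ⟨d, hd, hdα⟩ := QE.exists_nat_congr (1 * 2 ^ R) hα
    have hd2 : Nat.Coprime d 2 := hd.coprime_dvd_right h2R
    have h1 := t0_Gamma0 h4 hR' hγ hd hdα
    have hw : ((2 : ℕ) : ℤ) = ((0 + 1 : ℕ) : ℤ) + ((0 + 1 : ℕ) : ℤ) := by norm_num
    rw [hw, hF, mul_slash_SL2, h1]
    have hsq := QE.J_cast_ne (coprime_D_of hR hd2) (pos_of_coprime_two hd2)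
    funext z
    simp only [Pi.mul_apply, Pi.smul_apply, smul_eq_mul]
    linear_combination (q.t0 z * q.t0 z) * hsq
  have hLv : Lv 1 R ((2 : ℕ) : ℤ) F := by
    constructor
    · intro γ hγ
      apply hact
      rw [one_mul]; exact hγ.2
    · have h1 : AB ((0 + 1 : ℕ) : ℤ) q.t0 := QE.AB_tf QD.per_one h4 0
      have := h1.mul h1
      have hw : ((2 : ℕ) : ℤ) = ((0 + 1 : ℕ) : ℤ) + ((0 + 1 : ℕ) : ℤ) := by norm_num
      rw [hw]; exact this
  have hmem := mem_V_of_Lv (R := R) R (k := 2) (by norm_num) le_rfl hLv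
  refine V.congr (fun d hd => ?_) hmem
  funext n
  have hd2 : Nat.Coprime d 2 := by simpa using hd
  rw [pf, hact _ (dia_mem _ _), hF, qc_mul_good hg hg, map_sum, Finset.mul_sum, mulF]
  refine Finset.sum_congr rfl fun p _ => ?_
  rw [map_mul, iota_qc_t0, iota_qc_t0, XF, XF]
  have hsq : (J(-(q.D : ℤ) | d) : L) * (J(-(q.D : ℤ) | d) : L) = 1 := by
    exact_mod_cast QE.J_sq (coprime_D_of hR hd2) (pos_of_coprime_two hd2)
  linear_combination (-(d : L) ^ 2 * ((q.fib p.1).card : L) * ((q.fib p.2).card : L)) * hsq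

/-- a unit from a theta series -/
def UF.th (q : QD) (h4 : 4 ∣ q.D) (hR : q.D ^ 2 ∣ 2 ^ R) (hX : XF q ∈ V 1)
    (h1 : Near 1 (XF q) oneF (1 / 2)) : UF R where
  w := 1
  G := q.t0
  χ := fun d => J(-(q.D : ℤ) | d)
  good := QD.tf_good QD.per_one 0
  ab := QE.AB_tf QD.per_one h4 0
  χsq := fun _ hd => QE.J_sq (coprime_D_of hR hd) (pos_of_coprime_two hd)
  tr := by
    intro γ hγ d hd h11
    haveI : NeZero (2 ^ R) := ⟨by positivity⟩
    exact t0_Gamma0 h4 hR hγ (hd.pow_right R) h11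
  canc := by
    intro N _ Φ C hΦ h
    refine cancel hX h1 hΦ ?_
    have e : (fun d n => (d : L) ^ 1 * (J(-(q.D : ℤ) | d) : L) * iota (qc q.t0 n) : Fm) = XF q := by
      funext d n
      rw [iota_qc_t0, XF, pow_one]
    rw [e] at h
    exact h

/-- `x² + y²` -/
def q4 : QD := qa 1 one_pos
/-- `x² + 2 y²` -/
def q8 : QD := qa 2 two_pos

lemma q4_D : q4.D = 4 := qa_D one_pos
lemma q8_D : q8.D = 8 := qa_D two_pos

lemma norm_int_dvd {x : ℤ} {k : ℕ} (h : (2 ^ k : ℤ) ∣ x) : ‖(x : L)‖ ≤ (1 / 2) ^ k := by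
  obtain ⟨y, rfl⟩ := h
  push_cast
  rw [norm_mul, norm_two_pow]
  exact mul_le_of_le_one_right (by positivity) (norm_int_le_one y)

lemma J4_val {d : ℕ} (hd : Odd d) : (4 : ℤ) ∣ d * J(-((4 : ℕ) : ℤ) | d) - 1 ∧
    (J(-((4 : ℕ) : ℤ) | d) = 1 ∨ J(-((4 : ℕ) : ℤ) | d) = -1) := by
  have h1 : J(-((4 : ℕ) : ℤ) | d) = J(-((4 : ℕ) : ℤ) | (d % 16)) := by
    have := jacobiSym.mod_right (-((4 : ℕ) : ℤ)) hd
    simpa using this
  have hlt : d % 16 < 16 := Nat.mod_lt _ (by norm_num)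
  have hodd : d % 16 % 2 = 1 := by rw [Nat.odd_iff] at hd; omega
  have hd16 : (d : ℤ) % 16 = ((d % 16 : ℕ) : ℤ) := by push_cast; rfl
  rw [h1]
  generalize d % 16 = e at hlt hodd hd16
  interval_cases e <;> simp at hodd <;> norm_num at hd16 ⊢ <;> omega

lemma J8_val {d : ℕ} (hd : Odd d) :
    (8 : ℤ) ∣ 2 * (d * J(-((8 : ℕ) : ℤ) | d)) - 1 - d * J(-((4 : ℕ) : ℤ) | d) ∧
    (2 : ℤ) ∣ d * J(-((8 : ℕ) : ℤ) | d) - 1 ∧
    (J(-((8 : ℕ) : ℤ) | d) = 1 ∨ J(-((8 : ℕ) : ℤ) | d) = -1) := by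
  have h1 : J(-((8 : ℕ) : ℤ) | d) = J(-((8 : ℕ) : ℤ) | (d % 32)) := by
    have := jacobiSym.mod_right (-((8 : ℕ) : ℤ)) hd
    simpa using this
  have h2 : J(-((4 : ℕ) : ℤ) | d) = J(-((4 : ℕ) : ℤ) | (d % 32)) := by
    have hodd : Odd (d % 32) := by rw [Nat.odd_iff] at hd ⊢; omega
    apply QE.J_congr hd hodd
    change d % (4 * 4) = d % 32 % (4 * 4)
    omega
  have hlt : d % 32 < 32 := Nat.mod_lt _ (by norm_num)
  have hodd : d % 32 % 2 = 1 := by rw [Nat.odd_iff] at hd; omega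
  have hd32 : (d : ℤ) % 32 = ((d % 32 : ℕ) : ℤ) := by push_cast; rfl
  rw [h1, h2]
  generalize d % 32 = e at hlt hodd hd32
  interval_cases e <;> simp at hodd <;> norm_num at hd32 ⊢ <;> omega

lemma XF_int (q : QD) (d n : ℕ) : XF q d n =
    ((d * J(-(q.D : ℤ) | d) * ((q.fib n).card : ℤ) : ℤ) : L) := by
  rw [XF]; push_cast; ring

lemma oneF_int (d n : ℕ) : oneF d n = ((if n = 0 then 1 else 0 : ℤ) : L) := by
  rw [oneF]; split_ifs <;> simp

lemma odd_of_coprime_one {d : ℕ} (hd : Nat.Coprime d (2 * 1)) : Odd d := by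
  rw [← Nat.coprime_two_right]; simpa using hd

lemma X4_near : Near 1 (XF q4) oneF (1 / 4) := by
  intro d hd n
  have hJ := J4_val (odd_of_coprime_one hd)
  rw [XF_int, oneF_int, ← Int.cast_sub, q4_D]
  have h4 : (2 ^ 2 : ℤ) ∣ d * J(-((4 : ℕ) : ℤ) | d) * ((q4.fib n).card : ℤ) -
      (if n = 0 then 1 else 0) := by
    by_cases hn : n = 0
    · subst hn
      rw [if_pos rfl, q4, fib_zero]
      simpa using hJ.1
    · rw [if_neg hn, sub_zero]
      have := (rep_facts hn).1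
      apply Dvd.dvd.mul_left
      have h5 : ((4 : ℕ) : ℤ) ∣ ((q4.fib n).card : ℤ) := by exact_mod_cast this
      simpa using h5
  have := norm_int_dvd h4
  norm_num at this ⊢
  exact this

lemma X8_near : Near 1 (XF q8) oneF (1 / 2) := by
  intro d hd n
  have hJ := J8_val (odd_of_coprime_one hd)
  rw [XF_int, oneF_int, ← Int.cast_sub, q8_D]
  have h4 : (2 ^ 1 : ℤ) ∣ d * J(-((8 : ℕ) : ℤ) | d) * ((q8.fib n).card : ℤ) -
      (if n = 0 then 1 else 0) := by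
    by_cases hn : n = 0
    · subst hn
      rw [if_pos rfl, q8, fib_zero]
      simpa using hJ.2.1
    · rw [if_neg hn, sub_zero]
      have := (rep_facts hn).2.1
      apply Dvd.dvd.mul_left
      have h5 : ((2 : ℕ) : ℤ) ∣ ((q8.fib n).card : ℤ) := by exact_mod_cast this
      simpa using h5
  have := norm_int_dvd h4
  norm_num at this ⊢
  exact this

theorem X4_mem : XF q4 ∈ V 1 := by
  refine hensel (Y := oneF) (X4_near.mono (by norm_num)) (XF_sq (R := 4) ?_ ?_) oneF_mem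
    X4_near.symm
  · rw [q4_D]
  · rw [q4_D]; norm_num

theorem X8_mem : XF q8 ∈ V 1 := by
  refine hensel (Y := (2 : L)⁻¹ • (oneF + XF q4)) X8_near (XF_sq (R := 6) ?_ ?_)
    (Submodule.smul_mem _ _ (add_mem oneF_mem X4_mem)) ?_
  · rw [q8_D]; norm_num
  · rw [q8_D]; norm_num
  · intro d hd n
    have hdo := odd_of_coprime_one hd
    have hJ8 := J8_val hdo
    have hJ4 := J4_val hdo
    have e : ((2 : L)⁻¹ • (oneF + XF q4)) d n - XF q8 d n = (2 : L)⁻¹ *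
        (((if n = 0 then 1 else 0) + d * J(-((4 : ℕ) : ℤ) | d) * ((q4.fib n).card : ℤ) -
          2 * (d * J(-((8 : ℕ) : ℤ) | d) * ((q8.fib n).card : ℤ)) : ℤ) : L) := by
      change (2 : L)⁻¹ * (oneF d n + XF q4 d n) - XF q8 d n = _
      rw [XF_int, XF_int, oneF_int, q4_D, q8_D]
      push_cast
      field_simp
    rw [e, norm_mul, norm_inv, norm_two]
    have h8 : (2 ^ 3 : ℤ) ∣ (if n = 0 then 1 else 0) +
        d * J(-((4 : ℕ) : ℤ) | d) * ((q4.fib n).card : ℤ) -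
          2 * (d * J(-((8 : ℕ) : ℤ) | d) * ((q8.fib n).card : ℤ)) := by
      by_cases hn : n = 0
      · subst hn
        rw [if_pos rfl, q4, q8, fib_zero, fib_zero]
        have := (dvd_neg).2 hJ8.1
        norm_num at this ⊢
        obtain ⟨y, hy⟩ := this
        exact ⟨y, by linear_combination hy⟩
      · rw [if_neg hn]
        obtain ⟨f1, f2, f3⟩ := rep_facts hn
        obtain ⟨a, ha⟩ := f1
        obtain ⟨b, hb⟩ := f2
        have hab : (a : ℤ) ≡ b [ZMOD 2] := by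
          rw [ha, hb] at f3
          have : (2 * (2 * b)) % 8 = (4 * a) % 8 := f3
          change (a : ℤ) % 2 = (b : ℤ) % 2
          omega
        have hq4 : (q4.fib n).card = 4 * a := ha
        have hq8 : (q8.fib n).card = 2 * b := hb
        rw [hq4, hq8]
        obtain ⟨c, hc⟩ := Int.modEq_iff_dvd.1 hab
        have hbc : (b : ℤ) = a + 2 * c := by linarith
        push_cast
        rw [hbc]
        rcases hJ4.2 with h1 | h1 <;> rcases hJ8.2.2 with h2 | h2 <;> push_cast at h1 h2 <;>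
          rw [h1, h2]
        · exact ⟨-(d * c), by ring⟩
        · exact ⟨d * a + d * c, by ring⟩
        · exact ⟨-(d * a) - d * c, by ring⟩
        · exact ⟨d * c, by ring⟩
    have := norm_int_dvd h8
    calc (1 / 2 : ℝ)⁻¹ * _ ≤ (1 / 2)⁻¹ * (1 / 2) ^ 3 :=
          mul_le_mul_of_nonneg_left this (by norm_num)
      _ = 1 / 4 := by norm_num

/-- the unit `θ(z)²` -/
def U4 (R : ℕ) : UF (R + 6) := UF.th q4 (by rw [q4_D])
  (by rw [q4_D]; exact dvd_trans (by norm_num : 4 ^ 2 ∣ 2 ^ 6) (pow_dvd_pow 2 (by omega)))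
  X4_mem (X4_near.mono (by norm_num))

/-- the unit `θ(z) θ(2z)` -/
def U8 (R : ℕ) : UF (R + 6) := UF.th q8 (by rw [q8_D]; norm_num)
  (by rw [q8_D]; exact dvd_trans (by norm_num : 8 ^ 2 ∣ 2 ^ 6) (pow_dvd_pow 2 (by omega)))
  X8_mem X8_near

end

end Vale.Agent.P022.H390E
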